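import Vale.Agent.P261.R2.H288.Loc
import Mathlib.RingTheory.Ideal.Quotient.Operations

/-!
# P261: the action of `G_n` on `E₀ / I_{n-1}` (helper288)
-/

namespace Vale.Agent.P261.R2.H288

open MvPowerSeries Vale.Agent.P217 Vale.Agent.P261.R2.H932

variable {p n : ℕ} [Fact p.Prime] {Γ : FormalGroup (ZMod p)} {F : FormalGroup (LT.E0 p n)}

/-- `E₀ / I_{n-1}`. -/
abbrev Qn (p n : ℕ) [Fact p.Prime] : Type := LT.E0 p n ⧸ LT.heightIdeal p n (n - 1)

/-- the quotient map. -/
noncomputable abbrev mk (p n : ℕ) [Fact p.Prime] : LT.E0 p n →+* Qn p n :=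
  Ideal.Quotient.mk (LT.heightIdeal p n (n - 1))

theorem mk_eq_zero (x : LT.E0 p n) : mk p n x = 0 ↔ x ∈ P217.heightIdeal p n (n - 1) :=
  Ideal.Quotient.eq_zero_iff_mem

theorem mk_eq (x y : LT.E0 p n) : mk p n x = mk p n y ↔ x - y ∈ P217.heightIdeal p n (n - 1) :=
  Ideal.Quotient.eq

theorem le_comap (hA : LT.HeightAdapted p n F) (h : ℕ) (hh : h ≤ n) (g : Gn p n F) :
    P217.heightIdeal p n h ≤
      (P217.heightIdeal p n h).comap (Gn.pi g : LT.E0 p n →+* LT.E0 p n) := by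
  rw [← Ideal.map_le_iff_le_comap]
  exact (isInvariant_heightIdeal_of_adapted hA h hh (Gn.pi g) g.1.2 g.iso).le

theorem pi_mem (hA : LT.HeightAdapted p n F) (h : ℕ) (hh : h ≤ n) (g : Gn p n F)
    {x : LT.E0 p n} (hx : x ∈ P217.heightIdeal p n h) : Gn.pi g x ∈ P217.heightIdeal p n h :=
  le_comap hA h hh g hx

theorem pi_mem_iff (hA : LT.HeightAdapted p n F) (h : ℕ) (hh : h ≤ n) (g : Gn p n F)
    (x : LT.E0 p n) : Gn.pi g x ∈ P217.heightIdeal p n h ↔ x ∈ P217.heightIdeal p n h := by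
  refine ⟨fun hx => ?_, pi_mem hA h hh g⟩
  have h1 := pi_mem hA h hh g⁻¹ hx
  have h2 : Gn.pi g⁻¹ (Gn.pi g x) = x := by
    rw [map_inv]
    exact (Gn.pi g).symm_apply_apply x
  rwa [h2] at h1

/-- the action of `G_n` on `E₀ / I_{n-1}`. -/
noncomputable def act (hA : LT.HeightAdapted p n F) (g : Gn p n F) : Qn p n →+* Qn p n :=
  Ideal.quotientMap _ (Gn.pi g : LT.E0 p n →+* LT.E0 p n) (le_comap hA (n - 1) (by omega) g)

theorem act_mk (hA : LT.HeightAdapted p n F) (g : Gn p n F) (x : LT.E0 p n) :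
    act hA g (mk p n x) = mk p n (Gn.pi g x) := rfl

theorem act_mul (hA : LT.HeightAdapted p n F) (g h : Gn p n F) (x : Qn p n) :
    act hA (g * h) x = act hA g (act hA h x) := by
  obtain ⟨x, rfl⟩ := Ideal.Quotient.mk_surjective x
  rw [act_mk, act_mk, act_mk, map_mul]
  rfl

theorem act_one (hA : LT.HeightAdapted p n F) (x : Qn p n) : act hA (1 : Gn p n F) x = x := by
  obtain ⟨x, rfl⟩ := Ideal.Quotient.mk_surjective x
  rw [act_mk, map_one]
  rfl

theorem act_inj (hA : LT.HeightAdapted p n F) (g : Gn p n F) (x : Qn p n) (h : act hA g x = 0) :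
    x = 0 := by
  obtain ⟨x, rfl⟩ := Ideal.Quotient.mk_surjective x
  rw [act_mk, mk_eq_zero, pi_mem_iff hA (n - 1) (by omega)] at h
  exact (mk_eq_zero x).2 h

/-- the class of the cocycle `t`, a unit. -/
noncomputable def T (g : Gn p n F) : (Qn p n)ˣ :=
  Units.map (mk p n : LT.E0 p n →* Qn p n) (Gn.isUnit_t g).unit

theorem coe_T (g : Gn p n F) : ((T g : (Qn p n)ˣ) : Qn p n) = mk p n (Gn.t g) := rfl

theorem T_mul (hA : LT.HeightAdapted p n F) (g h : Gn p n F) :
    T (g * h) = T g * Units.map (act hA g : Qn p n →* Qn p n) (T h) := by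
  apply Units.ext
  rw [Units.val_mul, Units.coe_map, coe_T, coe_T, coe_T, Gn.t_mul, map_mul]
  rfl

theorem T_one : T (1 : Gn p n F) = 1 := by
  apply Units.ext
  rw [coe_T, Gn.t_one, map_one, Units.val_one]

/-- the power `ω ^ i` of the Teichmüller character. -/
noncomputable def w (i : ℕ) (g : Gn p n F) : Qn p n :=
  mk p n (tch p n (P217.red p n (Gn.t g)) ^ i)

theorem w_one (i : ℕ) : w i (1 : Gn p n F) = 1 := by
  rw [w, Gn.t_one, map_one, tch_one, one_pow, map_one]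

theorem red_pi_tch (hn1 : 1 ≤ n) (hA : LT.HeightAdapted p n F) (g : Gn p n F)
    (x : LT.E0 p n) : P217.red p n (Gn.pi g (tch p n (P217.red p n x))) =
      P217.red p n (Gn.pi g x) := by
  have h1 : tch p n (P217.red p n x) - x ∈ P217.heightIdeal p n n := by
    rw [mem_heightIdeal_top hn1, map_sub, red_tch, sub_self]
  have h2 := pi_mem hA n le_rfl g h1
  rw [mem_heightIdeal_top hn1, map_sub, map_sub, sub_eq_zero] at h2
  exact h2

theorem w_mul (hn : 2 ≤ n) (hA : LT.HeightAdapted p n F) (i : ℕ) (g h : Gn p n F) :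
    w i (g * h) = w i g * act hA g (w i h) := by
  have hn1 : 1 ≤ n := by omega
  have h1 : mk p n (tch p n (P217.red p n (Gn.pi g (Gn.t h)))) =
      mk p n (Gn.pi g (tch p n (P217.red p n (Gn.t h)))) := by
    rw [← red_pi_tch hn1 hA, eq_comm, mk_eq]
    refine sub_tch_mem hn1 (n - 1) (by omega) (by omega) ?_
    rw [← map_pow, tch_pow hn1]
  rw [w, w, w, Gn.t_mul, map_mul, tch_mul, mul_pow, map_mul, act_mk, map_pow (Gn.pi g),
    map_pow _ (Gn.pi g _), ← h1, ← map_pow]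

theorem red_t_ne (g : Gn p n F) : P217.red p n (Gn.t g) ≠ 0 :=
  ((Gn.isUnit_t g).map (P217.red p n)).ne_zero

theorem gal_pow (hn1 : 1 ≤ n) {c : GaloisField p n} (hc : c ≠ 0) : c ^ (p ^ n - 1) = 1 := by
  have h1 := galois_pow (p := p) hn1 c
  have h2 : p ^ n - 1 + 1 = p ^ n :=
    Nat.sub_add_cancel (Nat.one_le_pow _ _ (Fact.out : p.Prime).pos)
  rw [← h2, pow_succ] at h1
  exact mul_right_cancel₀ hc (h1.trans (one_mul c).symm)

theorem tch_npow (c : GaloisField p n) (k : ℕ) : tch p n (c ^ k) = tch p n c ^ k := by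
  induction k with
  | zero => rw [pow_zero, pow_zero, tch_one]
  | succ k ih => rw [pow_succ, pow_succ, tch_mul, ih]

theorem w_pow (hn1 : 1 ≤ n) (i : ℕ) (g : Gn p n F) : w i g ^ (p ^ n - 1) = 1 := by
  rw [w, ← map_pow, ← pow_mul, mul_comm, pow_mul, ← tch_npow, gal_pow hn1 (red_t_ne g), tch_one,
    one_pow, map_one]

section

variable (hn : 2 ≤ n) (hΓ : LT.IsHonda p n Γ) (hF : LT.IsUniversal p n Γ F)
    (hA : LT.HeightAdapted p n F)

/-- The invariant of the stratum. -/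
noncomputable def vv (F : FormalGroup (LT.E0 p n)) : Qn p n := mk p n (lead F (n - 1))

theorem isDomain_Qn (hn1 : 1 ≤ n) : IsDomain (Qn p n) := by
  have h : (LT.heightIdeal p n (n - 1)).IsPrime := isPrime_heightIdeal hn1 (n - 1) (by omega)
  exact Ideal.Quotient.isDomain _

theorem charP_Qn (hn : 2 ≤ n) : CharP (Qn p n) p := by
  have := isDomain_Qn (p := p) (n := n) (by omega)
  rw [CharP.charP_iff_prime_eq_zero (Fact.out : p.Prime)]
  have h1 : mk p n (p : LT.E0 p n) = 0 := (mk_eq_zero _).2 (p_mem (n - 1) (by omega))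
  rw [map_natCast] at h1
  exact h1

include hn hA

include hF in
theorem act_vv (g : Gn p n F) :
    act hA g (vv F) * ((T g : (Qn p n)ˣ) : Qn p n) ^ (p ^ (n - 1) - 1) = vv F := by
  have hF' := LTC.isUniversal_iff.1 hF
  have hh : 1 ≤ n - 1 := by omega
  have hle : n - 1 ≤ n := by omega
  have h1 := trans_law hF' hA (n - 1) hh hle (Gn.pi g) g.1.2 g.iso
  change piH p n (n - 1) hh hle (Gn.t g) * _ = _ * (piH p n (n - 1) hh hle (Gn.t g)) ^ _ at h1
  have h2 : p ^ (n - 1) - 1 + 1 = p ^ (n - 1) :=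
    Nat.sub_add_cancel (Nat.one_le_pow _ _ (Fact.out : p.Prime).pos)
  have hD : IsDomain (MvPowerSeries (Fin (n - (n - 1))) (GaloisField p n)) :=
    NoZeroDivisors.to_isDomain _
  have h3 : piH p n (n - 1) hh hle (Gn.t g) ≠ 0 := ((Gn.isUnit_t g).map _).ne_zero
  have h4 : piH p n (n - 1) hh hle (Gn.pi g (lead F (n - 1))) *
      piH p n (n - 1) hh hle (Gn.t g) ^ (p ^ (n - 1) - 1) =
      piH p n (n - 1) hh hle (lead F (n - 1)) := by
    apply mul_left_cancel₀ h3
    rw [h1]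
    conv_rhs => rw [← h2, pow_succ]
    ring
  rw [vv, act_mk, coe_T, ← map_pow, ← map_mul, mk_eq, mem_heightIdeal_iff (n - 1) hh hle, map_sub,
    map_mul, map_pow, h4, sub_self]

include hΓ hF

theorem vv_ne_zero : vv F ≠ 0 := by
  intro h
  exact lead_not_mem hn hΓ hF hA ((mk_eq_zero _).1 h)

omit hΓ hF in
theorem vv_not_unit : ¬ IsUnit (vv F) := by
  intro h
  obtain ⟨y, hy⟩ := h.exists_right_inv
  obtain ⟨y, rfl⟩ := Ideal.Quotient.mk_surjective y
  have h1 : mk p n (lead F (n - 1) * y) = mk p n 1 := by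
    rw [map_mul, map_one]
    exact hy
  rw [mk_eq] at h1
  have h2 := H260.heightIdeal_mono (p := p) (n := n) (by omega : n - 1 ≤ n) h1
  rw [mem_heightIdeal_top (by omega), map_sub, map_mul,
    (mem_heightIdeal_top (by omega) _).1 (lead_mem hn hA), zero_mul, map_one, zero_sub] at h2
  exact one_ne_zero (neg_eq_zero.1 h2)

/-- `x` is represented by an element of `I_n ^ K`. -/
def Small (K : ℕ) (x : Qn p n) : Prop := ∃ y ∈ P217.heightIdeal p n n ^ K, x = mk p n y

theorem small_div {K : ℕ} {x : Qn p n} (h : Small (K + 1) (vv F * x)) : Small K x := by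
  have hD := isDomain_Qn (p := p) (n := n) (by omega)
  obtain ⟨y, hy, h1⟩ := h
  obtain ⟨z, hz, h2⟩ := div_lead_pow hn hΓ hF hA K hy
  refine ⟨z, hz, ?_⟩
  apply mul_left_cancel₀ (vv_ne_zero hn hΓ hF hA)
  rw [h1, vv, ← map_mul, mk_eq]
  exact h2

theorem small_div_pow {K j : ℕ} {x : Qn p n} (h : Small (K + j) (vv F ^ j * x)) : Small K x := by
  induction j generalizing x with
  | zero => rwa [pow_zero, one_mul, add_zero] at h
  | succ j ih =>
    apply ih
    apply small_div hn hΓ hF hA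
    rw [← mul_assoc, ← pow_succ']
    exact h

omit hn hΓ hF hA in
theorem Small.smul_mem {K : ℕ} {x : Qn p n} (h : Small K x) :
    x ∈ (LT.heightIdeal p n n ^ K • ⊤ : Submodule (LT.E0 p n) (Qn p n)) := by
  obtain ⟨y, hy, rfl⟩ := h
  have h1 : mk p n y = y • mk p n 1 := by
    have h2 : mk p n (y • (1 : LT.E0 p n)) = y • mk p n 1 := rfl
    rw [← h2, smul_eq_mul, mul_one]
  rw [h1]
  exact Submodule.smul_mem_smul hy Submodule.mem_top

theorem exists_e (r i : ℕ) (hri : i + r = p ^ n - 1) (g : Gn p n F) :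
    ∃ e : Qn p n, w i g * ((T g : (Qn p n)ˣ) : Qn p n) ^ r = 1 + vv F * e ∧
      ∀ K, Gn.t g - 1 ∈ P217.heightIdeal p n n ^ (K + 1) → Small K e := by
  have hn1 : 1 ≤ n := by omega
  have hx : tch p n (P217.red p n (Gn.t g)) ^ i * Gn.t g ^ r - 1 ∈ P217.heightIdeal p n n := by
    rw [mem_heightIdeal_top hn1, map_sub, map_mul, map_pow, map_pow, red_tch, ← pow_add, hri,
      gal_pow hn1 (red_t_ne g), map_one, sub_self]
  obtain ⟨y, hy⟩ := div_lead hn hΓ hF hA hx
  have h1 : w i g * ((T g : (Qn p n)ˣ) : Qn p n) ^ r = 1 + vv F * mk p n y := by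
    rw [w, coe_T, vv, ← map_pow, ← map_mul, ← map_mul, ← map_one (mk p n), ← map_add, mk_eq]
    have h2 : tch p n (P217.red p n (Gn.t g)) ^ i * Gn.t g ^ r - (1 + lead F (n - 1) * y) =
      tch p n (P217.red p n (Gn.t g)) ^ i * Gn.t g ^ r - 1 - lead F (n - 1) * y := by ring
    rw [h2]
    exact hy
  refine ⟨mk p n y, h1, fun K hK => ?_⟩
  apply small_div hn hΓ hF hA
  have h3 : P217.red p n (Gn.t g) = 1 := by
    have h4 := Ideal.pow_le_self (by omega : K + 1 ≠ 0) hK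
    rw [mem_heightIdeal_top hn1, map_sub, map_one, sub_eq_zero] at h4
    exact h4
  refine ⟨Gn.t g ^ r - 1, ?_, ?_⟩
  · obtain ⟨z, hz⟩ := sub_one_dvd_pow_sub_one (Gn.t g) r
    rw [hz]
    exact Ideal.mul_mem_right _ _ hK
  · rw [map_sub, map_one, eq_sub_iff_add_eq, add_comm, ← h1, w, h3, tch_one, one_pow, map_one,
      one_mul, coe_T, map_pow]

end

end Vale.Agent.P261.R2.H288
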