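import Vale.Agent.P261.R2.H288.Main
import Mathlib.Order.Filter.AtTopBot.Basic

/-!
# P261: `H¹` of the stratum of height `n - 1` is infinite, conclusion (helper288)
-/

namespace Vale.Agent.P261.R2.H288

open MvPowerSeries Vale.Agent.P217 Vale.Agent.P261.R2.H932 Topology

variable {p n : ℕ} [Fact p.Prime] {Γ : FormalGroup (ZMod p)} {F : FormalGroup (LT.E0 p n)}

theorem not_H1Finite (H : Subgroup (Gn p n F)) [TopologicalSpace H] {M : Type} [AddCommGroup M]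
    [Module (LT.E0 p n) M] (ρ : H → M → M) (hadd : ∀ g m m', ρ g (m + m') = ρ g m + ρ g m')
    (c : ℕ → H → M) (hc : ∀ a, IsCocycle H ρ (c a))
    (hne : ∀ k l, l < k → ∀ b : M, ¬ ∀ g, c k g - c l g = ρ g b - b) : ¬ H1Finite H ρ := by
  have h0 : ∀ g, ρ g 0 = 0 := by
    intro g
    have h1 := hadd g 0 0
    rw [add_zero] at h1
    exact left_eq_add.1 h1
  have hneg : ∀ g m, ρ g (-m) = -ρ g m := by
    intro g m
    have h1 := hadd g m (-m)
    rw [add_neg_cancel, h0] at h1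
    exact (neg_eq_of_add_eq_zero_right h1.symm).symm
  rintro ⟨S, hS, -, hall⟩
  let B : AddSubgroup (H → M) :=
    { carrier := {c | IsCoboundary ρ c}
      add_mem' := by
        rintro a b ⟨m, hm⟩ ⟨m', hm'⟩
        refine ⟨m + m', fun g => ?_⟩
        rw [Pi.add_apply, hm, hm', hadd]
        abel
      zero_mem' := ⟨0, fun g => by rw [h0, Pi.zero_apply, sub_zero]⟩
      neg_mem' := by
        rintro a ⟨m, hm⟩
        refine ⟨-m, fun g => ?_⟩
        rw [Pi.neg_apply, hm, hneg]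
        abel }
  obtain ⟨k, hk⟩ := pigeon B c (fun k l hkl hmem => by
    obtain ⟨b, hb⟩ := hmem
    exact hne k l hkl b hb) S hS
  obtain ⟨s, hs, hs2⟩ := hall (c k) (hc k)
  exact hk s hs hs2

theorem vv_dvd (hn : 2 ≤ n) (hΓ : LT.IsHonda p n Γ) (hF : LT.IsUniversal p n Γ F)
    (hA : LT.HeightAdapted p n F) (x : Qn p n) : vv F ∣ x ^ p ^ n - x := by
  have hn1 : 1 ≤ n := by omega
  obtain ⟨x, rfl⟩ := Ideal.Quotient.mk_surjective x
  have h1 : x ^ p ^ n - x ∈ P217.heightIdeal p n n := by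
    rw [mem_heightIdeal_top hn1, map_sub, map_pow, galois_pow hn1, sub_self]
  obtain ⟨y, hy⟩ := div_lead hn hΓ hF hA h1
  refine ⟨mk p n y, ?_⟩
  rw [← map_pow, ← map_sub, vv, ← map_mul]
  exact (mk_eq _ _).2 hy

theorem Small.sub {K : ℕ} {x y : Qn p n} (hx : Small K x) (hy : Small K y) : Small K (x - y) := by
  obtain ⟨a, ha, rfl⟩ := hx
  obtain ⟨b, hb, rfl⟩ := hy
  exact ⟨a - b, Ideal.sub_mem _ ha hb, (map_sub _ _ _).symm⟩

section

variable (hn : 2 ≤ n) (hΓ : LT.IsHonda p n Γ) (hF : LT.IsUniversal p n Γ F)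
    (hA : LT.HeightAdapted p n F) (H : Subgroup (Gn p n F)) (hH : H.index ≠ 0)
    [TopologicalSpace H]
    (hcont : ∀ K, ∀ᶠ g : H in 𝓝 (1 : H), Gn.t (g : Gn p n F) - 1 ∈ LT.heightIdeal p n n ^ K)

/-- the exponent identity. -/
theorem T_rel {N j P r : ℕ} {k : ℤ} (h : (N : ℤ) * j + k = r * P) (g : Gn p n F) :
    ((T g ^ k : (Qn p n)ˣ) : Qn p n) * ((T g : (Qn p n)ˣ) : Qn p n) ^ (N * j) =
      ((T g : (Qn p n)ˣ) : Qn p n) ^ (r * P) := by
  have h1 : T g ^ k * T g ^ (N * j) = T g ^ (r * P) := by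
    rw [← zpow_natCast (T g) (N * j), ← zpow_natCast (T g) (r * P), ← zpow_add]
    congr 1
    push_cast
    linarith
  have h2 := congrArg Units.val h1
  rw [Units.val_mul, Units.val_pow_eq_pow_val, Units.val_pow_eq_pow_val] at h2
  exact h2

include hcont

theorem small_eventually (k : ℤ) (i r : ℕ) (hri : i + r = p ^ n - 1) (hr : 1 ≤ r) (a P K : ℕ)
    (hP : 1 ≤ P) : ∀ᶠ g : H in 𝓝 (1 : H),
      Small K ((data hn hΓ hF hA H hH k i r hri hr).v ^ a *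
        (data hn hΓ hF hA H hH k i r hri hr).e g ^ P) := by
  filter_upwards [hcont (K + 1)] with g hg
  obtain ⟨y, hy, h1⟩ := (exists_e hn hΓ hF hA r i hri (g : Gn p n F)).choose_spec.2 K hg
  refine ⟨lead F (n - 1) ^ a * y ^ P, ?_, ?_⟩
  · exact Ideal.mul_mem_left _ _ (Ideal.pow_mem_of_mem _ hy P hP)
  · show vv F ^ a * (exists_e hn hΓ hF hA r i hri (g : Gn p n F)).choose ^ P = _
    rw [h1, vv, ← map_pow, ← map_pow, ← map_mul]

include hn hΓ hF hH

/-- The first case. -/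
theorem case_one (k : ℤ) (i r : ℕ) (hri : i + r = p ^ n - 1) (hr : 1 ≤ r)
    (hrN : r ≤ p ^ (n - 1) - 1) (hk : ((p ^ (n - 1) - 1 : ℕ) : ℤ) ∣ k - r)
    (hc : r < p ^ (n - 1) - 1 ∨ 0 ≤ k) :
    ¬ H1Finite H (fun g => rho hA k i (g : Gn p n F)) := by
  have hDom := isDomain_Qn (p := p) (n := n) (by omega)
  have hChar := charP_Qn (p := p) hn
  set D := data hn hΓ hF hA H hH k i r hri hr with hDdef
  have hp1 : 1 < p := (Fact.out : p.Prime).one_lt
  have hqN : ((p ^ (n - 1) - 1 : ℕ) : ℤ) ∣ ((p ^ n : ℕ) : ℤ) ^ (n - 1) - 1 := by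
    have h1 : ((p ^ (n - 1) - 1 : ℕ) : ℤ) = (p : ℤ) ^ (n - 1) - 1 := by
      rw [Nat.cast_sub (Nat.one_le_pow _ _ (by omega))]
      push_cast
      rfl
    rw [h1]
    have h2 : ((p ^ n : ℕ) : ℤ) ^ (n - 1) = ((p : ℤ) ^ (n - 1)) ^ n := by
      push_cast
      rw [← pow_mul, ← pow_mul, mul_comm]
    rw [h2]
    exact sub_one_dvd_pow_sub_one _ _
  have hex := exponents (N := p ^ (n - 1) - 1) (q := p ^ n) (n' := n - 1) (r := r) (k := k)
    D.hq (by omega) hqN hr hrN hk hc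
  obtain ⟨J, hJ, hJP⟩ := Nat.exists_strictMono_subsequence hex
  choose m hm1 hm2 using hJP
  have hWj : ∀ a g, D.W g * D.t g ^ ((p ^ (n - 1) - 1) * J a) =
      D.w g * D.t g ^ (r * (p ^ n) ^ m a) := by
    intro a g
    have h1 := T_rel (P := (p ^ n) ^ m a) (by rw [hm2 a]; push_cast; rfl) (g : Gn p n F)
    show w i (g : Gn p n F) * ((T (g : Gn p n F) ^ k : (Qn p n)ˣ) : Qn p n) *
      ((T (g : Gn p n F) : (Qn p n)ˣ) : Qn p n) ^ ((p ^ (n - 1) - 1) * J a) =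
        w i (g : Gn p n F) * ((T (g : Gn p n F) : (Qn p n)ˣ) : Qn p n) ^ (r * (p ^ n) ^ m a)
    rw [mul_assoc, h1]
  have hrel : ∀ a g, (1 + D.v ^ J a * (D.v ^ ((p ^ n) ^ m a - J a) * D.e g ^ (p ^ n) ^ m a)) *
      D.φ g (D.v ^ J a) = D.W g * D.v ^ J a := fun a g =>
    D.rel (pow_mul p n (m a)) (hm1 a) g (hWj a g)
  refine not_H1Finite H _ (fun g m m' => ?_)
    (fun a g => D.v ^ ((p ^ n) ^ m a - J a) * D.e g ^ (p ^ n) ^ m a) (fun a => ⟨?_, fun K => ?_⟩) ?_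
  · exact (rho_module hn hA H k i).add g m m'
  · exact cocycle_of D.φ D.W D.hφ D.hW (fun g => D.φ_ne g (pow_ne_zero _ D.hv0))
      (pow_ne_zero _ D.hv0) (hrel a)
  · filter_upwards [small_eventually hn hΓ hF hA H hH hcont k i r hri hr
      ((p ^ n) ^ m a - J a) ((p ^ n) ^ m a) K (Nat.one_le_pow _ _ (by have := D.hq; omega))]
      with g hg
    exact hg.smul_mem
  · intro a b hab z hz
    exact D.not_cohom (J a) (J b) (m a) (hJ hab) _ _ (hrel a) (hrel b) (hWj a) z hz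

/-- The second case. -/
theorem case_two (k : ℤ) (i r : ℕ) (hri : i + r = p ^ n - 1) (hr : 1 ≤ r)
    (hrN : r = p ^ (n - 1) - 1) (j₀ : ℕ) (hk : (r : ℤ) * j₀ + k = 0) :
    ¬ H1Finite H (fun g => rho hA k i (g : Gn p n F)) := by
  have hDom := isDomain_Qn (p := p) (n := n) (by omega)
  have hChar := charP_Qn (p := p) hn
  have hp1 : 1 < p := (Fact.out : p.Prime).one_lt
  set D := data hn hΓ hF hA H hH k i r hri hr with hDdef
  set D0 := data hn hΓ hF hA H hH 0 i r hri hr with hD0def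
  have hq2 : 2 ≤ p ^ n := D.hq
  set v : Qn p n := vv F with hvdef
  set e : H → Qn p n := D0.e with hedef
  have hv0 : v ≠ 0 := D0.hv0
  have hj₀ : j₀ ≤ (p ^ n) ^ j₀ := (Nat.lt_pow_self (by omega)).le
  -- the relation for `D0`
  have hWj : ∀ (m : ℕ) g, D0.W g * D0.t g ^ ((p ^ (n - 1) - 1) * (p ^ n) ^ m) =
      D0.w g * D0.t g ^ (r * (p ^ n) ^ m) := by
    intro m g
    have h1 := T_rel (k := 0) (N := p ^ (n - 1) - 1) (j := (p ^ n) ^ m) (r := r)
      (P := (p ^ n) ^ m) (by rw [hrN, add_zero]) (g : Gn p n F)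
    show w i (g : Gn p n F) * ((T (g : Gn p n F) ^ (0 : ℤ) : (Qn p n)ˣ) : Qn p n) *
      ((T (g : Gn p n F) : (Qn p n)ˣ) : Qn p n) ^ ((p ^ (n - 1) - 1) * (p ^ n) ^ m) =
        w i (g : Gn p n F) * ((T (g : Gn p n F) : (Qn p n)ˣ) : Qn p n) ^ (r * (p ^ n) ^ m)
    rw [mul_assoc, h1]
  have hrel : ∀ (m : ℕ) g, (1 + D0.v ^ ((p ^ n) ^ m) * e g ^ (p ^ n) ^ m) *
      D0.φ g (D0.v ^ ((p ^ n) ^ m)) = D0.W g * D0.v ^ ((p ^ n) ^ m) := by
    intro m g
    have h1 := D0.rel (pow_mul p n m) le_rfl g (hWj m g)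
    rw [Nat.sub_self, pow_zero, one_mul] at h1
    exact h1
  have hcoc : ∀ (m : ℕ) (g h : H), e (g * h) ^ (p ^ n) ^ m =
      e g ^ (p ^ n) ^ m + D0.W g * D0.φ g (e h ^ (p ^ n) ^ m) := fun m =>
    cocycle_of D0.φ D0.W D0.hφ D0.hW (fun g => D0.φ_ne g (pow_ne_zero _ D0.hv0))
      (pow_ne_zero _ D0.hv0) (hrel m)
  have hsmall : ∀ (m K : ℕ), ∀ᶠ g : H in 𝓝 (1 : H), Small K (e g ^ (p ^ n) ^ m) := by
    intro m K
    filter_upwards [small_eventually hn hΓ hF hA H hH hcont 0 i r hri hr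
      0 ((p ^ n) ^ m) K (Nat.one_le_pow _ _ (by omega))] with g hg
    rw [pow_zero, one_mul] at hg
    exact hg
  -- the quotients
  have hdiv : ∀ (a : ℕ) (g : H), ∃ d : Qn p n,
      v ^ j₀ * d = e g ^ (p ^ n) ^ ((a + 1) + j₀) - e g ^ (p ^ n) ^ j₀ := by
    intro a g
    have h1 := pow_dvd_sub (p := p) (vv_dvd hn hΓ hF hA) (pow_mul p n j₀) (e g) (a + 1)
    obtain ⟨d, hd⟩ := (pow_dvd_pow v hj₀).trans h1
    exact ⟨d, hd.symm⟩
  choose d hd using hdiv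
  have hWW : ∀ g, D0.W g * D0.φ g (v ^ j₀) = D.W g * v ^ j₀ := by
    intro g
    have h1 := T_rel (k := k) (N := r) (j := j₀) (r := r) (P := 0)
      (by rw [hk]; simp) (g : Gn p n F)
    rw [mul_zero, pow_zero] at h1
    have h2 : D0.φ g v * D0.t g ^ r = v := by
      have h3 := D0.hv g
      have h4 : D0.t g ^ r = D0.t g ^ (p ^ (n - 1) - 1) := congrArg (fun x => D0.t g ^ x) hrN
      rw [h4]
      exact h3
    have h4 : D0.W g = D0.w g := by
      show w i (g : Gn p n F) * ((T (g : Gn p n F) ^ (0 : ℤ) : (Qn p n)ˣ) : Qn p n) =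
        w i (g : Gn p n F)
      rw [zpow_zero, Units.val_one, mul_one]
    have h5 : D.W g = D0.w g * ((T (g : Gn p n F) ^ k : (Qn p n)ˣ) : Qn p n) := rfl
    have h6 : D0.φ g (v ^ j₀) * D0.t g ^ (r * j₀) = v ^ j₀ := by
      rw [map_pow, pow_mul, ← mul_pow, h2]
    have h7 : D0.t g = ((T (g : Gn p n F) : (Qn p n)ˣ) : Qn p n) := rfl
    rw [h4, h5]
    conv_rhs => rw [← h6]
    rw [h7]
    linear_combination (-(D0.w g * D0.φ g (v ^ j₀))) * h1
  refine not_H1Finite H _ (fun g m m' => ?_) d (fun a => ⟨?_, fun K => ?_⟩) ?_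
  · exact (rho_module hn hA H k i).add g m m'
  · refine div_cocycle D.φ D.W D0.W (pow_ne_zero j₀ hv0) hWW (hd a) ?_
    intro g h
    rw [hcoc, hcoc, map_sub]
    show _ = _ + D0.W g * (D0.φ g _ - D0.φ g _)
    ring
  · filter_upwards [hsmall ((a + 1) + j₀) (K + j₀), hsmall j₀ (K + j₀)] with g h1 h2
    have h3 := h1.sub h2
    rw [← hd a g] at h3
    exact (small_div_pow hn hΓ hF hA h3).smul_mem
  · intro a b hab z hz
    refine D0.not_cohom ((p ^ n) ^ ((a + 1) + j₀)) ((p ^ n) ^ ((b + 1) + j₀)) ((a + 1) + j₀)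
      (Nat.pow_lt_pow_right (by omega) (by omega)) _ _ (hrel _) (hrel _) (hWj _) (v ^ j₀ * z) ?_
    intro g
    have h1 := hd a g
    have h2 := hd b g
    have h3 : d a g - d b g = D.W g * D0.φ g z - z := hz g
    rw [map_mul]
    linear_combination h2 - h1 + v ^ j₀ * h3 - (D0.φ g z) * hWW g

/-- **Main theorem.** -/
theorem main (k : ℤ) (i r : ℕ) (hri : i + r = p ^ n - 1) (hr : 1 ≤ r)
    (hrN : r ≤ p ^ (n - 1) - 1) (hk : ((p ^ (n - 1) - 1 : ℕ) : ℤ) ∣ k - r) :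
    ¬ H1Finite H (fun g => rho hA k i (g : Gn p n F)) := by
  by_cases hc : r < p ^ (n - 1) - 1 ∨ 0 ≤ k
  · exact case_one hn hΓ hF hA H hH hcont k i r hri hr hrN hk hc
  · push Not at hc
    have h1 : r = p ^ (n - 1) - 1 := by omega
    obtain ⟨z, hz⟩ := hk
    rw [← h1] at hz
    have h2 : k = r * (z + 1) := by linarith
    have h3 : z + 1 ≤ 0 := by
      by_contra hcon
      push Not at hcon
      have h4 : (0 : ℤ) ≤ r * (z + 1) := by positivity
      omega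
    obtain ⟨j₀, hj₀⟩ := Int.eq_ofNat_of_zero_le (neg_nonneg.2 h3)
    refine case_two hn hΓ hF hA H hH hcont k i r hri hr h1 j₀ ?_
    rw [h2, ← hj₀]
    ring

end

end Vale.Agent.P261.R2.H288
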