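import Vale.Agent.P261.R2.H288.StForm
import Vale.Agent.P261.R2.H398.Stmt2
import Mathlib.Topology.Algebra.Group.Basic

/-!
# P261: `H¹` of the cochain complex and crossed homomorphisms (helper288)
-/

namespace Vale.Agent.P261.R2.H288

open MvPowerSeries Vale.Agent.P217 Vale.Agent.P261 Vale.Agent.P261.R2.H932 Topology

variable {p n : ℕ} [Fact p.Prime] {Γ : FormalGroup (ZMod p)} {F : FormalGroup (LT.E0 p n)}
variable {G : Type} [Group G] {M : Type} [AddCommGroup M]

theorem coboundary_one (ρ : G → M → M) (c : (Fin 1 → G) → M) (x : Fin 2 → G) :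
    St.coboundary ρ 1 c x = ρ (x 0) (c fun _ => x 1) - c (fun _ => x 0 * x 1) +
      c (fun _ => x 0) := by
  have h1 : (fun i : Fin 1 => x i.succ) = fun _ => x 1 := by
    funext i
    rw [Subsingleton.elim i 0]
    rfl
  have h2 : Fin.contractNth (0 : Fin 2) (· * ·) x = fun _ => x 0 * x 1 := by
    funext i
    rw [Subsingleton.elim i 0]
    rfl
  have h3 : Fin.contractNth (1 : Fin 2) (· * ·) x = fun _ => x 0 := by
    funext i
    rw [Subsingleton.elim i 0]
    rfl
  rw [St.coboundary, Fin.sum_univ_two, h1, h2, h3]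
  simp
  abel

theorem coboundary_zero (ρ : G → M → M) (c : (Fin 0 → G) → M) (x : Fin 1 → G) :
    St.coboundary ρ 0 c x = ρ (x 0) (c default) - c default := by
  have h1 : ∀ y : Fin 0 → G, y = default := fun y => Subsingleton.elim _ _
  rw [St.coboundary, Fin.sum_univ_one, h1 (fun i => x i.succ), h1 (Fin.contractNth 0 _ x)]
  simp
  abel

section

variable [Module (LT.E0 p n) M] {a : G → St.Pair p n} {ρ : G → M → M}

theorem phi_pow_mem (hA : LT.HeightAdapted p n F) (ha : St.IsFiniteIndex F a) (x : G) (k : ℕ)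
    {r : LT.E0 p n} (hr : r ∈ LT.heightIdeal p n n ^ k) :
    (a x).φ r ∈ LT.heightIdeal p n n ^ k := by
  have h1 : (LT.heightIdeal p n n).map (a x).φ ≤ LT.heightIdeal p n n := by
    rw [Ideal.map_le_iff_le_comap]
    intro y hy
    exact pi_mem hA n le_rfl (jj ha x) hy
  have h2 : (a x).φ r ∈ (LT.heightIdeal p n n ^ k).map (a x).φ := Ideal.mem_map_of_mem _ hr
  rw [Ideal.map_pow] at h2
  exact Ideal.pow_right_mono h1 k h2

theorem rho_mem (hA : LT.HeightAdapted p n F) (ha : St.IsFiniteIndex F a)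
    (h : St.IsMoravaModule a ρ) (x : G) (k : ℕ) {m : M}
    (hm : m ∈ (LT.heightIdeal p n n ^ k • ⊤ : Submodule (LT.E0 p n) M)) :
    ρ x m ∈ (LT.heightIdeal p n n ^ k • ⊤ : Submodule (LT.E0 p n) M) := by
  refine Submodule.smul_induction_on hm ?_ ?_
  · intro r hr m' _
    rw [h.smul]
    exact Submodule.smul_mem_smul (phi_pow_mem hA ha x k hr) Submodule.mem_top
  · intro m₁ m₂ h1 h2
    rw [h.add]
    exact Submodule.add_mem _ h1 h2

theorem rho_zero (h : St.IsMoravaModule a ρ) (x : G) : ρ x 0 = 0 := by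
  have h1 := h.add x 0 0
  rw [add_zero] at h1
  exact left_eq_add.1 h1

theorem rho_sum (h : St.IsMoravaModule a ρ) (x : G) {ι : Type} (s : Finset ι) (f : ι → M) :
    ρ x (∑ i ∈ s, f i) = ∑ i ∈ s, ρ x (f i) := by
  classical
  induction s using Finset.induction_on with
  | empty => rw [Finset.sum_empty, Finset.sum_empty, rho_zero h]
  | insert b s hb ih => rw [Finset.sum_insert hb, Finset.sum_insert hb, h.add, ih]

theorem rho_nsmul (h : St.IsMoravaModule a ρ) (x : G) (N : ℕ) (m : M) :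
    ρ x (N • m) = N • ρ x m := by
  induction N with
  | zero => rw [zero_smul, zero_smul, rho_zero h]
  | succ N ih => rw [succ_nsmul, succ_nsmul, h.add, ih]

variable [TopologicalSpace G]

theorem toCochain [ContinuousMul G] (hA : LT.HeightAdapted p n F) (ha : St.IsFiniteIndex F a)
    (h : St.IsMoravaModule a ρ) {c : G → M} (hc : St.IsCocycle p n ρ c) :
    St.IsCochain p n (fun y : Fin 1 → G => c (y 0)) ∧
      St.coboundary ρ 1 (fun y : Fin 1 → G => c (y 0)) = 0 := by
  constructor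
  · intro k x
    have h1 : Filter.Tendsto (fun y : Fin 1 → G => (x 0)⁻¹ * y 0) (𝓝 x) (𝓝 1) := by
      have h2 : Continuous (fun y : Fin 1 → G => (x 0)⁻¹ * y 0) :=
        continuous_const.mul (continuous_apply 0)
      have h3 := h2.tendsto x
      rwa [inv_mul_cancel] at h3
    filter_upwards [h1.eventually (hc.2 k)] with y hy
    have h4 : c (y 0) = c (x 0) + ρ (x 0) (c ((x 0)⁻¹ * y 0)) := by
      rw [← hc.1, mul_inv_cancel_left]
    rw [h4, add_sub_cancel_left]
    exact rho_mem hA ha h _ k hy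
  · funext x
    rw [coboundary_one, hc.1, Pi.zero_apply]
    abel

theorem ofCochain (h : St.IsMoravaModule a ρ) {e : (Fin 1 → G) → M}
    (he : St.IsCochain p n e) (he' : St.coboundary ρ 1 e = 0) :
    St.IsCocycle p n ρ (fun g => e fun _ => g) := by
  have h1 : ∀ x y : G, e (fun _ => x * y) = e (fun _ => x) + ρ x (e fun _ => y) := by
    intro x y
    have h2 := congrFun he' ![x, y]
    rw [coboundary_one, Pi.zero_apply] at h2
    have h3 : ρ x (e fun _ => y) - e (fun _ => x * y) + e (fun _ => x) = 0 := h2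
    rw [sub_add_eq_add_sub, sub_eq_zero, add_comm] at h3
    exact h3.symm
  refine ⟨h1, fun k => ?_⟩
  have h4 : e (fun _ => (1 : G)) = 0 := by
    have h5 := h1 1 1
    rw [mul_one, h.one] at h5
    exact left_eq_add.1 h5
  have h6 : Filter.Tendsto (fun g : G => (fun _ : Fin 1 => g)) (𝓝 1) (𝓝 fun _ => 1) :=
    (continuous_pi fun _ => continuous_id).tendsto 1
  filter_upwards [h6.eventually (he k fun _ => 1)] with g hg
  rw [h4, sub_zero] at hg
  exact hg

theorem cocycle_sum (h : St.IsMoravaModule a ρ) {d : ℕ} (e : Fin d → G → M)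
    (he : ∀ i, St.IsCocycle p n ρ (e i)) (m : Fin d → ℕ) :
    St.IsCocycle p n ρ (fun g => ∑ i, m i • e i g) := by
  refine ⟨fun x y => ?_, fun k => ?_⟩
  · rw [rho_sum h, ← Finset.sum_add_distrib]
    refine Finset.sum_congr rfl fun i _ => ?_
    rw [(he i).1, rho_nsmul h, smul_add]
  · filter_upwards [Filter.eventually_all.2 fun i => (he i).2 k] with g hg
    exact Submodule.sum_mem _ fun i _ => Submodule.smul_of_tower_mem _ _ (hg i)

theorem zp_smul (hp : ∀ m : M, (p : LT.E0 p n) • m = 0) (b : ℤ_[p]) (m : M) :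
    St.zp p n b • m = (b.zmodRepr) • m := by
  obtain ⟨b', hb'⟩ := Ideal.mem_span_singleton'.1
    (PadicInt.maximalIdeal_eq_span_p (p := p) ▸ PadicInt.sub_zmodRepr_mem b)
  have h1 : b = b' * p + (b.zmodRepr : ℤ_[p]) := by rw [hb', sub_add_cancel]
  have h2 : St.zp p n b = St.zp p n b' * p + (b.zmodRepr : LT.E0 p n) := by
    conv_lhs => rw [h1]
    rw [map_add, map_mul, map_natCast, map_natCast]
  rw [h2, add_smul, mul_smul, hp, smul_zero, zero_add, Nat.cast_smul_eq_nsmul]

/-- If `p M = 0` and `H¹` is a finitely generated `ℤ_p`-module then it is finite. -/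
theorem h1Finite_of_HFG [ContinuousMul G] (hA : LT.HeightAdapted p n F)
    (ha : St.IsFiniteIndex F a) (h : St.IsMoravaModule a ρ)
    (hp : ∀ m : M, (p : LT.E0 p n) • m = 0) (hH : St.HFG p n ρ 0) : St.H1Finite p n ρ := by
  obtain ⟨d, e, he, hall⟩ := hH
  have hec : ∀ i, St.IsCocycle p n ρ (fun g => e i fun _ => g) := fun i =>
    ofCochain h (he i).1 (he i).2
  refine ⟨Set.range (fun (m : Fin d → Fin p) g => ∑ i, (m i : ℕ) • e i (fun _ => g)),
    Set.finite_range _, ?_, fun c hc => ?_⟩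
  · rintro _ ⟨m, rfl⟩
    exact cocycle_sum h _ hec fun i => (m i : ℕ)
  · obtain ⟨h1, h2⟩ := toCochain hA ha h hc
    obtain ⟨b, c', -, h3⟩ := hall _ h1 h2
    refine ⟨_, ⟨fun i => ⟨(b i).zmodRepr, PadicInt.zmodRepr_lt_p _⟩, rfl⟩, c' default,
      fun g => ?_⟩
    have h4 := congrFun h3 (fun _ => g)
    rw [Pi.add_apply, coboundary_zero, Finset.sum_apply] at h4
    show c g - ∑ i, (b i).zmodRepr • e i (fun _ => g) = _
    have h5 : ∑ i, (b i).zmodRepr • e i (fun _ => g) =
        ∑ i, (St.zp p n (b i) • e i) (fun _ => g) := by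
      refine Finset.sum_congr rfl fun i _ => ?_
      rw [Pi.smul_apply, zp_smul hp]
    rw [h5]
    have h6 : c g = ∑ i, (St.zp p n (b i) • e i) (fun _ => g) + (ρ g (c' default) - c' default) :=
      h4
    rw [h6, add_sub_cancel_left]

end

/-- `H¹(G; π_{2k} E_n / I_{n-1} ⊗ ω ^ (-r))` is not a finitely generated `ℤ_p`-module. -/
theorem not_HFG [TopologicalSpace G] [ContinuousMul G] (hn : 2 ≤ n) (hΓ : LT.IsHonda p n Γ)
    (hF : LT.IsUniversal p n Γ F) (hA : LT.HeightAdapted p n F) {a : G → St.Pair p n}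
    (ha : St.IsFiniteIndex F a) (hcont : ∀ K, ∀ᶠ x : G in 𝓝 (1 : G),
      PowerSeries.coeff 1 (a x).g - 1 ∈ LT.heightIdeal p n n ^ K)
    (k : ℤ) (r : ℕ) (hr : 1 ≤ r) (hrN : r ≤ p ^ (n - 1) - 1)
    (hk : ((p ^ (n - 1) - 1 : ℕ) : ℤ) ∣ k - r)
    (ρ : G → (LT.E0 p n ⧸ LT.heightIdeal p n (n - 1)) →
      (LT.E0 p n ⧸ LT.heightIdeal p n (n - 1)))
    (hρ : ∀ x y, ρ x (Ideal.Quotient.mk _ y) =
      Ideal.Quotient.mk _ (St.omegaTwist a (p ^ n - 1 - r) k x y)) : ¬ St.HFG p n ρ 0 := by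
  have hlt : p ^ (n - 1) < p ^ n :=
    Nat.pow_lt_pow_right (Fact.out : p.Prime).one_lt (by omega)
  have h1 : ρ = rhoSt ha hA k (p ^ n - 1 - r) := by
    funext x m
    obtain ⟨m, rfl⟩ := Ideal.Quotient.mk_surjective m
    exact (hρ x m).trans (rhoSt_mk ha hA k (p ^ n - 1 - r) x m).symm
  rw [h1]
  intro hH
  refine main_st ha hn hΓ hF hA hcont k (p ^ n - 1 - r) r (by omega) hr hrN hk
    (h1Finite_of_HFG hA ha (rhoSt_module ha hn hA k _) (fun m => ?_) hH)
  obtain ⟨m, rfl⟩ := Ideal.Quotient.mk_surjective m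
  have h2 : (p : LT.E0 p n) • mk p n m = mk p n (p : LT.E0 p n) * mk p n m := rfl
  show (p : LT.E0 p n) • mk p n m = 0
  rw [h2, (mk_eq_zero _).2 (p_mem (n - 1) (by omega)), zero_mul]

end Vale.Agent.P261.R2.H288
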