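import Vale.Agent.P261.R2.H932.Asm
import Vale.Agent.P261.R2.H932.Twist
import Vale.Agent.P261.R2.H288.Abs

/-!
# P261: the stratum of height `n - 1` (helper288)
-/

namespace Vale.Agent.P261.R2.H288

open MvPowerSeries Vale.Agent.P217 Vale.Agent.P261.R2.H932

variable {p n : ℕ} [Fact p.Prime] {Γ : FormalGroup (ZMod p)} {F : FormalGroup (LT.E0 p n)}

theorem sub_tch_mem (hn1 : 1 ≤ n) (h : ℕ) (hh : 1 ≤ h) (hle : h ≤ n) {x : LT.E0 p n}
    (hx : x ^ p ^ n = x) : x - tch p n (P217.red p n x) ∈ P217.heightIdeal p n h := by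
  have key : ∀ x : P217.E0 p n, x ^ p ^ n = x →
      piH p n h hh hle x = C (P217.red p n x) := by
    intro x hx
    have h1 : piH p n h hh hle x ^ p ^ n = piH p n h hh hle x := by rw [← map_pow, hx]
    have h2 := eq_C_of_pow_eq (p := p) hn1 h1
    rw [h2, constantCoeff_piH]
  rw [mem_heightIdeal_iff h hh hle, map_sub, key x hx, key _ (tch_pow hn1 _), red_tch, sub_self]

theorem p_mem (h : ℕ) (hh : 1 ≤ h) : (p : P217.E0 p n) ∈ P217.heightIdeal p n h := by
  rw [heightIdeal_of_pos hh]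
  exact Ideal.subset_span (Or.inl rfl)

section

variable (hn : 2 ≤ n) (hΓ : LT.IsHonda p n Γ) (hF : LT.IsUniversal p n Γ F)
    (hA : LT.HeightAdapted p n F)

include hn hA

theorem lead_mem : lead F (n - 1) ∈ P217.heightIdeal p n n :=
  coeff_low hA n (by omega) le_rfl _ (Nat.pow_lt_pow_right (Fact.out : p.Prime).one_lt (by omega))

include hΓ hF

theorem lead_not_mem : lead F (n - 1) ∉ P217.heightIdeal p n (n - 1) := by
  have hF' := LTC.isUniversal_iff.1 hF
  obtain ⟨e, he, h1⟩ := piH_lead (by omega) hΓ hF' hA (n - 1) (by omega) (by omega)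
  have hD : IsDomain (MvPowerSeries (Fin (n - (n - 1))) (GaloisField p n)) :=
    NoZeroDivisors.to_isDomain _
  have hXp := prime_X (p := p) (n := n) (by omega) (n - 1) (by omega) (by omega)
  rw [mem_heightIdeal_iff (n - 1) (by omega) (by omega), h1]
  exact mul_ne_zero he.ne_zero hXp.ne_zero

/-- division by the invariant of the stratum. -/
theorem div_lead {x : P217.E0 p n} (hx : x ∈ P217.heightIdeal p n n) :
    ∃ y, x - lead F (n - 1) * y ∈ P217.heightIdeal p n (n - 1) := by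
  have hF' := LTC.isUniversal_iff.1 hF
  have hh : 1 ≤ n - 1 := by omega
  have hle : n - 1 ≤ n := by omega
  have hlt : n - 1 < n := by omega
  obtain ⟨e, he, h1⟩ := piH_lead (by omega) hΓ hF' hA (n - 1) hh hlt
  have h2 : piH p n (n - 1) hh hle x ∈ (P217.heightIdeal p n n).map (piH p n (n - 1) hh hle) :=
    Ideal.mem_map_of_mem _ hx
  rw [map_piH_heightIdeal (n - 1) hh hle n (by omega)] at h2
  have h3 : {x : MvPowerSeries (Fin (n - (n - 1))) (GaloisField p n) |
      ∃ j : Fin (n - (n - 1)), (j : ℕ) + (n - 1) < n ∧ x = X j} ⊆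
      {X (⟨0, Nat.sub_pos_of_lt hlt⟩ : Fin (n - (n - 1)))} := by
    rintro _ ⟨j, hj, rfl⟩
    rw [Set.mem_singleton_iff]
    congr 1
    ext
    change (j : ℕ) = 0
    omega
  have h4 := Ideal.span_mono h3 h2
  obtain ⟨c', hc'⟩ := Ideal.mem_span_singleton'.1 h4
  obtain ⟨u, rfl⟩ := he
  obtain ⟨y, hy⟩ := piH_surjective (p := p) (n := n) (n - 1) hh hle
    ((u⁻¹ : (MvPowerSeries (Fin (n - (n - 1))) (GaloisField p n))ˣ) * c')
  refine ⟨y, ?_⟩
  rw [mem_heightIdeal_iff (n - 1) hh hle, map_sub, map_mul, h1, hy, ← hc', sub_eq_zero]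
  have h5 : (u : MvPowerSeries (Fin (n - (n - 1))) (GaloisField p n)) *
      (u⁻¹ : (MvPowerSeries (Fin (n - (n - 1))) (GaloisField p n))ˣ) = 1 := u.mul_inv
  linear_combination (-(c' * X (⟨0, Nat.sub_pos_of_lt hlt⟩ : Fin (n - (n - 1))))) * h5

theorem div_lead_pow (K : ℕ) {x : P217.E0 p n} (hx : x ∈ P217.heightIdeal p n n ^ (K + 1)) :
    ∃ y ∈ P217.heightIdeal p n n ^ K, x - lead F (n - 1) * y ∈ P217.heightIdeal p n (n - 1) := by
  rw [pow_succ] at hx
  refine Submodule.mul_induction_on hx ?_ ?_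
  · intro a ha b hb
    obtain ⟨y, hy⟩ := div_lead hn hΓ hF hA hb
    refine ⟨a * y, Ideal.mul_mem_right _ _ ha, ?_⟩
    have h1 : a * b - lead F (n - 1) * (a * y) = a * (b - lead F (n - 1) * y) := by ring
    rw [h1]
    exact Ideal.mul_mem_left _ _ hy
  · rintro a b ⟨y, hy, h1⟩ ⟨z, hz, h2⟩
    refine ⟨y + z, Ideal.add_mem _ hy hz, ?_⟩
    have h3 : a + b - lead F (n - 1) * (y + z) =
        (a - lead F (n - 1) * y) + (b - lead F (n - 1) * z) := by ring
    rw [h3]
    exact Ideal.add_mem _ h1 h2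

end

end Vale.Agent.P261.R2.H288
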