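import Vale.Agent.P261.R2.H288.Conc
import Mathlib.RingTheory.Filtration

/-!
# P261: completeness, closed ideals and Artin-Rees for `E₀` (helper288)
-/

namespace Vale.Agent.P261.R2.H288

open MvPowerSeries Vale.Agent.P217 Vale.Agent.P261.R2.H932

theorem artin_rees {R : Type*} [CommRing R] [IsNoetherianRing R] (m I : Ideal R) [hI : I.IsPrime]
    {v : R} (hv : v ∉ I) : ∃ c, ∀ k x, v * x ∈ I ⊔ m ^ (k + c) → x ∈ I ⊔ m ^ k := by
  obtain ⟨c, hc⟩ := Ideal.exists_pow_inf_eq_pow_smul (M := R) m (I ⊔ Ideal.span {v})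
  refine ⟨c, fun k x hx => ?_⟩
  obtain ⟨i, hi, z, hz, hiz⟩ := Submodule.mem_sup.1 hx
  have h1 : z ∈ m ^ (k + c) • (⊤ : Submodule R R) ⊓ (I ⊔ Ideal.span {v}) := by
    refine ⟨?_, ?_⟩
    · rw [smul_eq_mul, Ideal.mul_top]
      exact hz
    · have h2 : z = -i + v * x := by rw [← hiz]; ring
      rw [h2]
      exact Ideal.add_mem _ (Ideal.mem_sup_left (neg_mem hi))
        (Ideal.mem_sup_right (Ideal.mul_mem_right _ _ (Ideal.mem_span_singleton_self v)))
  rw [hc (k + c) (by omega), Nat.add_sub_cancel] at h1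
  have h3 : z ∈ m ^ k * (I ⊔ Ideal.span {v}) := Ideal.mul_mono_right inf_le_right h1
  rw [Ideal.mul_sup] at h3
  obtain ⟨i', hi', z', hz', hiz'⟩ := Submodule.mem_sup.1 h3
  obtain ⟨y, hy, hyz⟩ := Ideal.mem_mul_span_singleton.1 hz'
  have h4 : v * (x - y) ∈ I := by
    have h5 : v * (x - y) = i + i' := by
      have h6 : v * x = i + (i' + y * v) := by rw [hyz, hiz', hiz]
      linear_combination h6
    rw [h5]
    exact Ideal.add_mem I hi ((Ideal.mul_le_right : m ^ k * I ≤ I) hi')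
  have h7 := (hI.mem_or_mem h4).resolve_left hv
  have h8 : x = (x - y) + y := by ring
  rw [h8]
  exact Ideal.add_mem _ (Ideal.mem_sup_left h7) (Ideal.mem_sup_right hy)

variable {p n : ℕ} [Fact p.Prime] {Γ : FormalGroup (ZMod p)} {F : FormalGroup (LT.E0 p n)}

theorem top_eq_maximal (hn1 : 1 ≤ n) :
    LT.heightIdeal p n n = IsLocalRing.maximalIdeal (LT.E0 p n) := by
  rw [← C0.ker_red]
  ext x
  rw [RingHom.mem_ker]
  exact mem_heightIdeal_top hn1 x

theorem complete (hn1 : 1 ≤ n) (f : ℕ → LT.E0 p n)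
    (hf : ∀ k, f (k + 1) - f k ∈ LT.heightIdeal p n n ^ k) :
    ∃ L, ∀ k, f k - L ∈ LT.heightIdeal p n n ^ k := by
  rw [top_eq_maximal hn1] at hf ⊢
  have hc := CA.isAdicComplete_E0 (p := p) (n := n)
  have hstep : ∀ i j, i ≤ j → f j - f i ∈ IsLocalRing.maximalIdeal (LT.E0 p n) ^ i := by
    intro i j hij
    induction j, hij using Nat.le_induction with
    | base => rw [sub_self]; exact Ideal.zero_mem _
    | succ j hij ih =>
      have h1 : f (j + 1) - f i = (f (j + 1) - f j) + (f j - f i) := by ring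
      rw [h1]
      exact Ideal.add_mem _ (Ideal.pow_le_pow_right hij (hf j)) ih
  obtain ⟨L, hL⟩ := IsPrecomplete.prec (hc.toIsPrecomplete) (f := f) (fun {i j} hij => by
    rw [SModEq.comm, SModEq.sub_mem, smul_eq_mul, Ideal.mul_top]
    exact hstep i j hij)
  refine ⟨L, fun k => ?_⟩
  have h2 := hL k
  rw [SModEq.sub_mem, smul_eq_mul, Ideal.mul_top] at h2
  exact h2

theorem closed (hn1 : 1 ≤ n) (I : Ideal (LT.E0 p n)) (x : LT.E0 p n)
    (hx : ∀ k, x ∈ I ⊔ LT.heightIdeal p n n ^ k) : x ∈ I := by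
  rw [top_eq_maximal hn1] at hx
  rcases eq_or_ne I ⊤ with rfl | hI
  · exact Submodule.mem_top
  have : Nontrivial (LT.E0 p n ⧸ I) := Ideal.Quotient.nontrivial_iff.2 hI
  have hloc : IsLocalRing (LT.E0 p n ⧸ I) :=
    IsLocalRing.of_surjective' (Ideal.Quotient.mk I) Ideal.Quotient.mk_surjective
  rw [← Ideal.Quotient.eq_zero_iff_mem]
  have h1 : Ideal.Quotient.mk I x ∈
      (⨅ k : ℕ, (IsLocalRing.maximalIdeal (LT.E0 p n ⧸ I)) ^ k : Ideal (LT.E0 p n ⧸ I)) := by
    rw [Ideal.mem_iInf]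
    intro k
    obtain ⟨i, hi, z, hz, hiz⟩ := Submodule.mem_sup.1 (hx k)
    rw [← hiz, map_add, Ideal.Quotient.eq_zero_iff_mem.2 hi, zero_add]
    have h2 : (IsLocalRing.maximalIdeal (LT.E0 p n)).map (Ideal.Quotient.mk I) ≤
        IsLocalRing.maximalIdeal (LT.E0 p n ⧸ I) := by
      rw [Ideal.map_le_iff_le_comap]
      intro y hy
      rw [Ideal.mem_comap, IsLocalRing.mem_maximalIdeal, mem_nonunits_iff]
      intro hu
      have hl := IsLocalHom.of_surjective (Ideal.Quotient.mk I) Ideal.Quotient.mk_surjective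
      exact (IsLocalRing.mem_maximalIdeal y).1 hy (hl.map_nonunit y hu)
    exact Ideal.pow_right_mono h2 k (by
      rw [← Ideal.map_pow]
      exact Ideal.mem_map_of_mem _ hz)
  rw [Ideal.iInf_pow_eq_bot_of_isLocalRing _ (IsLocalRing.maximalIdeal.isMaximal _).ne_top] at h1
  exact h1

/-- Membership in `I_n ^ k (E₀ / I)`. -/
theorem mem_smul_top (I : Ideal (LT.E0 p n)) (k : ℕ) (x : LT.E0 p n) :
    Ideal.Quotient.mk I x ∈ (LT.heightIdeal p n n ^ k • ⊤ : Submodule (LT.E0 p n)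
      (LT.E0 p n ⧸ I)) ↔ x ∈ I ⊔ LT.heightIdeal p n n ^ k := by
  constructor
  · intro h
    have key : ∀ y ∈ (LT.heightIdeal p n n ^ k • ⊤ : Submodule (LT.E0 p n) (LT.E0 p n ⧸ I)),
        ∃ z ∈ LT.heightIdeal p n n ^ k, Ideal.Quotient.mk I z = y := by
      intro y hy
      refine Submodule.smul_induction_on hy ?_ ?_
      · intro r hr m _
        obtain ⟨m, rfl⟩ := Ideal.Quotient.mk_surjective m
        exact ⟨r * m, Ideal.mul_mem_right _ _ hr, rfl⟩
      · rintro a b ⟨z, hz, rfl⟩ ⟨z', hz', rfl⟩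
        exact ⟨z + z', Ideal.add_mem _ hz hz', map_add _ _ _⟩
    obtain ⟨z, hz, hzx⟩ := key _ h
    have h1 := Ideal.Quotient.eq.1 hzx
    have h2 : x = -(z - x) + z := by ring
    rw [h2]
    exact Ideal.add_mem _ (Ideal.mem_sup_left (neg_mem h1)) (Ideal.mem_sup_right hz)
  · intro h
    obtain ⟨i, hi, z, hz, hiz⟩ := Submodule.mem_sup.1 h
    rw [← hiz, map_add, Ideal.Quotient.eq_zero_iff_mem.2 hi, zero_add]
    have h1 : Ideal.Quotient.mk I z = z • Ideal.Quotient.mk I 1 := by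
      have h2 : Ideal.Quotient.mk I (z • (1 : LT.E0 p n)) = z • Ideal.Quotient.mk I 1 := rfl
      rw [← h2, smul_eq_mul, mul_one]
    rw [h1]
    exact Submodule.smul_mem_smul hz Submodule.mem_top

end Vale.Agent.P261.R2.H288
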