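import Vale.Agent.P261.R2.H288.Conc
import Mathlib.Order.Monotone.Basic

/-!
# P261: `H¹` of the stratum of height `n - 1` is infinite (helper288)
-/

namespace Vale.Agent.P261.R2.H288

open MvPowerSeries Vale.Agent.P217 Vale.Agent.P261.R2.H932 Topology

/-- the exponents. -/
theorem exponents {N q n' r : ℕ} {k : ℤ} (hq : 2 ≤ q) (hn' : 1 ≤ n')
    (hqN : (N : ℤ) ∣ (q : ℤ) ^ n' - 1) (hr : 1 ≤ r) (hrN : r ≤ N) (hk : (N : ℤ) ∣ k - r)
    (hc : r < N ∨ 0 ≤ k) (B : ℕ) :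
    ∃ j > B, ∃ m, j ≤ q ^ m ∧ (N : ℤ) * j + k = r * (q : ℤ) ^ m := by
  set a : ℕ := N * B + k.natAbs + 1 with ha
  have hbig : (N * B + k.natAbs : ℕ) < q ^ (n' * a) := by
    calc N * B + k.natAbs < a := by omega
      _ < 2 ^ a := Nat.lt_two_pow_self
      _ ≤ q ^ a := Nat.pow_le_pow_left hq a
      _ ≤ q ^ (n' * a) := Nat.pow_le_pow_right (by omega) (Nat.le_mul_of_pos_left a hn')
  have hbig' : (N : ℤ) * B + |k| < (q : ℤ) ^ (n' * a) := by
    have h1 : ((N * B + k.natAbs : ℕ) : ℤ) < ((q ^ (n' * a) : ℕ) : ℤ) := by exact_mod_cast hbig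
    push_cast at h1
    exact h1
  have hdvd : (N : ℤ) ∣ r * (q : ℤ) ^ (n' * a) - k := by
    have h1 : (q : ℤ) ^ n' - 1 ∣ ((q : ℤ) ^ n') ^ a - 1 := sub_one_dvd_pow_sub_one _ _
    rw [← pow_mul] at h1
    have h2 : r * (q : ℤ) ^ (n' * a) - k = r * ((q : ℤ) ^ (n' * a) - 1) - (k - r) := by ring
    rw [h2]
    exact dvd_sub (Dvd.dvd.mul_left (hqN.trans h1) _) hk
  obtain ⟨z, hz⟩ := hdvd
  have hN : (0 : ℤ) < N := by omega
  have hP : (0 : ℤ) < (q : ℤ) ^ (n' * a) := by positivity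
  have hkabs := le_abs_self k
  have hkabs' := neg_abs_le k
  have hrP : (q : ℤ) ^ (n' * a) ≤ r * (q : ℤ) ^ (n' * a) := by
    have : (1 : ℤ) ≤ r := by omega
    nlinarith
  have hz1 : (B : ℤ) < z := by
    by_contra hcon
    push Not at hcon
    have h1 : (N : ℤ) * z ≤ N * B := mul_le_mul_of_nonneg_left hcon hN.le
    linarith
  have hz2 : z ≤ (q : ℤ) ^ (n' * a) := by
    by_contra hcon
    push Not at hcon
    have h1 : (N : ℤ) * (q : ℤ) ^ (n' * a) < N * z := mul_lt_mul_of_pos_left hcon hN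
    rcases hc with hc | hc
    · have h2 : (r : ℤ) + 1 ≤ N := by omega
      have h3 : ((r : ℤ) + 1) * (q : ℤ) ^ (n' * a) ≤ N * (q : ℤ) ^ (n' * a) :=
        mul_le_mul_of_nonneg_right h2 hP.le
      have h4 : (0 : ℤ) ≤ N * B := by positivity
      linarith
    · have h2 : (r : ℤ) ≤ N := by omega
      have h3 : (r : ℤ) * (q : ℤ) ^ (n' * a) ≤ N * (q : ℤ) ^ (n' * a) :=
        mul_le_mul_of_nonneg_right h2 hP.le
      linarith
  lift z to ℕ using (by omega) with z'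
  refine ⟨z', by exact_mod_cast hz1, n' * a, by exact_mod_cast hz2, ?_⟩
  linarith

variable {p n : ℕ} [Fact p.Prime] {Γ : FormalGroup (ZMod p)} {F : FormalGroup (LT.E0 p n)}

/-- The action on `π_{2k} E_n / I_{n-1} ⊗ ω^i`. -/
noncomputable def rho (hA : LT.HeightAdapted p n F) (k : ℤ) (i : ℕ) (g : Gn p n F)
    (m : Qn p n) : Qn p n :=
  w i g * ((T g ^ k : (Qn p n)ˣ) : Qn p n) * act hA g m

theorem rho_mk (hA : LT.HeightAdapted p n F) (k : ℤ) (i : ℕ) (g : Gn p n F) (r : LT.E0 p n) :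
    rho hA k i g (mk p n r) = mk p n (tch p n (P217.red p n (Gn.t g)) ^ i * Gn.tw k g r) := by
  have h1 : T g ^ k = Units.map (mk p n : LT.E0 p n →* Qn p n) ((Gn.isUnit_t g).unit ^ k) :=
    (map_zpow _ _ _).symm
  rw [rho, h1, Units.coe_map, act_mk, w, map_mul, Gn.tw, map_mul, mul_assoc]
  rfl

theorem units_mul_zpow {R : Type*} [CommRing R] (x y : Rˣ) (k : ℤ) :
    (x * y) ^ k = x ^ k * y ^ k := mul_zpow x y k

theorem W_mul (hn : 2 ≤ n) (hA : LT.HeightAdapted p n F) (k : ℤ) (i : ℕ) (g h : Gn p n F) :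
    w i (g * h) * ((T (g * h) ^ k : (Qn p n)ˣ) : Qn p n) =
      w i g * ((T g ^ k : (Qn p n)ˣ) : Qn p n) *
        act hA g (w i h * ((T h ^ k : (Qn p n)ˣ) : Qn p n)) := by
  have h1 : ((Units.map (act hA g : Qn p n →* Qn p n) (T h) ^ k : (Qn p n)ˣ) : Qn p n) =
      act hA g ((T h ^ k : (Qn p n)ˣ) : Qn p n) := by
    rw [← map_zpow, Units.coe_map]
    rfl
  have h2 : (T g * Units.map (act hA g : Qn p n →* Qn p n) (T h)) ^ k =
      T g ^ k * Units.map (act hA g : Qn p n →* Qn p n) (T h) ^ k := units_mul_zpow _ _ _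
  rw [w_mul hn hA, T_mul hA, h2, Units.val_mul, h1, map_mul]
  ring

theorem rho_module (hn : 2 ≤ n) (hA : LT.HeightAdapted p n F) (H : Subgroup (Gn p n F)) (k : ℤ)
    (i : ℕ) : Vale.Agent.P261.IsMoravaModule H (Qn p n) (fun g => rho hA k i (g : Gn p n F)) := by
  refine ⟨inferInstance, fun m => ?_, fun g h m => ?_, fun g m m' => ?_, fun g r m => ?_⟩
  · show rho hA k i (1 : Gn p n F) m = m
    rw [rho, w_one, T_one, one_zpow, Units.val_one, one_mul, one_mul, act_one]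
  · show rho hA k i ((g : Gn p n F) * (h : Gn p n F)) m = _
    rw [rho, W_mul hn hA, act_mul]
    show _ = rho hA k i (g : Gn p n F) (rho hA k i (h : Gn p n F) m)
    rw [rho, rho, map_mul (act hA (g : Gn p n F)) _ (act hA (h : Gn p n F) m)]
    ring
  · show rho hA k i (g : Gn p n F) (m + m') = _
    rw [rho, map_add, mul_add]
    rfl
  · obtain ⟨m, rfl⟩ := Ideal.Quotient.mk_surjective m
    have h1 : r • mk p n m = mk p n r * mk p n m := rfl
    have h2 : ∀ x : Qn p n, Gn.pi (g : Gn p n F) r • x = mk p n (Gn.pi (g : Gn p n F) r) * x := by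
      intro x
      obtain ⟨x, rfl⟩ := Ideal.Quotient.mk_surjective x
      rfl
    show rho hA k i (g : Gn p n F) (r • mk p n m) = _ • rho hA k i (g : Gn p n F) (mk p n m)
    rw [h1, h2, rho, rho, map_mul, act_mk hA _ r]
    ring

section

variable (hn : 2 ≤ n) (hΓ : LT.IsHonda p n Γ) (hF : LT.IsUniversal p n Γ F)
    (hA : LT.HeightAdapted p n F) (H : Subgroup (Gn p n F)) (hH : H.index ≠ 0)

theorem N_pos (hn : 2 ≤ n) : 1 ≤ p ^ (n - 1) - 1 := by
  have h1 : 1 < p ^ (n - 1) := Nat.one_lt_pow (by omega) (Fact.out : p.Prime).one_lt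
  omega

/-- the data of the abstract argument. -/
noncomputable def data (k : ℤ) (i r : ℕ) (hri : i + r = p ^ n - 1) (hr : 1 ≤ r) :
    Data (Qn p n) H p (p ^ n) (p ^ (n - 1) - 1) r where
  φ g := act hA (g : Gn p n F)
  t g := ((T (g : Gn p n F) : (Qn p n)ˣ) : Qn p n)
  w g := w i (g : Gn p n F)
  e g := (exists_e hn hΓ hF hA r i hri (g : Gn p n F)).choose
  v := vv F
  W g := w i (g : Gn p n F) * ((T (g : Gn p n F) ^ k : (Qn p n)ˣ) : Qn p n)
  hφ g h x := act_mul hA (g : Gn p n F) (h : Gn p n F) x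
  hinj g x h := act_inj hA (g : Gn p n F) x h
  hW g h := W_mul hn hA k i (g : Gn p n F) (h : Gn p n F)
  ht g := by
    have := isDomain_Qn (p := p) (n := n) (by omega)
    exact (T (g : Gn p n F)).ne_zero
  hw g := w_pow (by omega) i (g : Gn p n F)
  hv g := act_vv hn hF hA (g : Gn p n F)
  hv0 := vv_ne_zero hn hΓ hF hA
  he g := (exists_e hn hΓ hF hA r i hri (g : Gn p n F)).choose_spec.1
  hfrac a b hb hab := by
    obtain ⟨a, rfl⟩ := Ideal.Quotient.mk_surjective a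
    obtain ⟨b, rfl⟩ := Ideal.Quotient.mk_surjective b
    obtain ⟨c, -, hc⟩ := frac (by omega) hΓ hF hA H hH (n - 1) (by omega) (by omega) a b
      (fun h => hb ((mk_eq_zero b).2 h)) (fun g => by
        have h1 := hab g
        rw [act_mk, act_mk, ← map_mul, ← map_mul, mk_eq] at h1
        exact h1)
    refine ⟨mk p n c, ?_⟩
    rw [← map_mul, mk_eq]
    exact hc
  hvu := vv_not_unit hn hA
  hN := N_pos hn
  hr := hr
  hq := by
    have h1 : 1 < p ^ n := Nat.one_lt_pow (by omega) (Fact.out : p.Prime).one_lt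
    omega

end

end Vale.Agent.P261.R2.H288
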