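import Vale.Agent.P261.R2.H288.Strict
import Vale.Agent.P261.R2.H932.Transfer2
import Vale.Agent.P261.R2.H823.Neg

/-!
# P261: the statement for groups identified with finite-index subgroups of `G_n` (helper288)
-/

namespace Vale.Agent.P261.R2.H288

open MvPowerSeries Vale.Agent.P217 Vale.Agent.P261 Vale.Agent.P261.R2.H932 Topology

variable {p n : ℕ} [Fact p.Prime] {Γ : FormalGroup (ZMod p)} {F : FormalGroup (LT.E0 p n)}

section

variable {G : Type} [Group G] [TopologicalSpace G] {a : G → St.Pair p n}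
  (ha : St.IsFiniteIndex F a)

/-- the topology of the image. -/
@[reducible] noncomputable def topRange : TopologicalSpace (jj ha).range :=
  TopologicalSpace.induced (ee ha).symm inferInstance

theorem eventually_range {P : (jj ha).range → Prop} :
    (∀ᶠ g in @nhds _ (topRange ha) 1, P g) ↔ ∀ᶠ x in 𝓝 (1 : G), P (ee ha x) := by
  rw [topRange, nhds_induced, map_one, Filter.eventually_comap]
  constructor
  · intro h
    filter_upwards [h] with x hx
    exact hx _ ((ee ha).symm_apply_apply x)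
  · intro h
    filter_upwards [h] with x hx
    rintro g rfl
    rwa [MulEquiv.apply_symm_apply] at hx

variable {M : Type} [AddCommGroup M] [Module (LT.E0 p n) M] {ρ : G → M → M}

theorem not_fin' (h : ¬ @H1Finite p n _ F (jj ha).range (topRange ha) M _ _ (rr ha ρ)) :
    ¬ St.H1Finite p n ρ := by
  rintro ⟨S, hS, hSc, hall⟩
  apply h
  refine ⟨(fun c g => c ((ee ha).symm g)) '' S, hS.image _, ?_, ?_⟩
  · rintro _ ⟨c, hc, rfl⟩
    obtain ⟨h1, h2⟩ := hSc c hc
    refine ⟨fun x y => ?_, fun k => ?_⟩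
    · show c ((ee ha).symm (x * y)) = _
      rw [map_mul, h1]
      rfl
    · rw [eventually_range ha]
      filter_upwards [h2 k] with x hx
      rwa [MulEquiv.symm_apply_apply]
  · rintro c ⟨hc1, hc2⟩
    obtain ⟨c', hc', m, hm⟩ := hall (fun x => c (ee ha x)) ⟨fun x y => by
      show c (ee ha (x * y)) = c (ee ha x) + ρ x (c (ee ha y))
      rw [map_mul, hc1, rr_ee], fun k => (eventually_range ha).1 (hc2 k)⟩
    refine ⟨_, ⟨c', hc', rfl⟩, m, fun g => ?_⟩
    have h1 := hm ((ee ha).symm g)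
    rw [Pi.sub_apply, MulEquiv.apply_symm_apply] at h1
    exact h1

end

section

variable {G : Type} [Group G] {a : G → St.Pair p n} (ha : St.IsFiniteIndex F a)

/-- the action on `π_{2k} E_n / I_{n-1} ⊗ ω^i`. -/
noncomputable def rhoSt (hA : LT.HeightAdapted p n F) (k : ℤ) (i : ℕ) (x : G) (m : Qn p n) :
    Qn p n := rho hA k i (jj ha x) m

theorem rhoSt_mk (hA : LT.HeightAdapted p n F) (k : ℤ) (i : ℕ) (x : G) (r : LT.E0 p n) :
    rhoSt ha hA k i x (mk p n r) = mk p n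
      (C (WittVector.teichmuller p (LT.red p n (PowerSeries.coeff 1 (a x).g))) ^ i *
        St.twist a k x r) := by
  rw [twist_eq ha]
  exact rho_mk hA k i (jj ha x) r

theorem rhoSt_module (hn : 2 ≤ n) (hA : LT.HeightAdapted p n F) (k : ℤ) (i : ℕ) :
    St.IsMoravaModule a (rhoSt ha hA k i) := by
  have h := rho_module hn hA (⊤ : Subgroup (Gn p n F)) k i
  exact ⟨h.finite, fun m => by
      show rho hA k i (jj ha 1) m = m
      rw [map_one]
      exact h.one m,
    fun x y m => by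
      show rho hA k i (jj ha (x * y)) m = _
      rw [map_mul]
      exact h.mul ⟨jj ha x, trivial⟩ ⟨jj ha y, trivial⟩ m,
    fun x m m' => h.add ⟨jj ha x, trivial⟩ m m',
    fun x r m => h.smul ⟨jj ha x, trivial⟩ r m⟩

theorem rr_rhoSt (hA : LT.HeightAdapted p n F) (k : ℤ) (i : ℕ) :
    rr ha (rhoSt ha hA k i) = fun g : (jj ha).range => rho hA k i (g : Gn p n F) := by
  funext g m
  show rho hA k i (jj ha ((ee ha).symm g)) m = _
  rw [ee_symm]

/-- The main theorem for `G`. -/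
theorem main_st [TopologicalSpace G] (hn : 2 ≤ n) (hΓ : LT.IsHonda p n Γ)
    (hF : LT.IsUniversal p n Γ F) (hA : LT.HeightAdapted p n F)
    (hcont : ∀ K, ∀ᶠ x : G in 𝓝 (1 : G),
      PowerSeries.coeff 1 (a x).g - 1 ∈ LT.heightIdeal p n n ^ K)
    (k : ℤ) (i r : ℕ) (hri : i + r = p ^ n - 1) (hr : 1 ≤ r)
    (hrN : r ≤ p ^ (n - 1) - 1) (hk : ((p ^ (n - 1) - 1 : ℕ) : ℤ) ∣ k - r) :
    ¬ St.H1Finite p n (rhoSt ha hA k i) := by
  apply not_fin' ha
  rw [rr_rhoSt]
  let _ : TopologicalSpace (jj ha).range := topRange ha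
  refine main hn hΓ hF hA (jj ha).range (jj_index ha) (fun K => ?_) k i r hri hr hrN hk
  rw [eventually_range ha]
  filter_upwards [hcont K] with x hx
  rw [ee_coe]
  exact hx

include ha in
/-- No twist is needed if `ω(x) ^ r = 1` on `G`. -/
theorem final_pow [TopologicalSpace G] (hn : 2 ≤ n) (hΓ : LT.IsHonda p n Γ)
    (hF : LT.IsUniversal p n Γ F) (hA : LT.HeightAdapted p n F)
    (hcont : ∀ K, ∀ᶠ x : G in 𝓝 (1 : G),
      PowerSeries.coeff 1 (a x).g - 1 ∈ LT.heightIdeal p n n ^ K)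
    (k : ℤ) (r : ℕ) (hr : 1 ≤ r) (hrN : r ≤ p ^ (n - 1) - 1)
    (hk : ((p ^ (n - 1) - 1 : ℕ) : ℤ) ∣ k - r)
    (hs : ∀ x, LT.red p n (PowerSeries.coeff 1 (a x).g) ^ r = 1) :
    ∃ ρ : G → Qn p n → Qn p n, (∀ (x : G) (y : LT.E0 p n),
      ρ x (mk p n y) = mk p n (St.twist a k x y)) ∧
      St.IsMoravaModule a ρ ∧ ¬ St.H1Finite p n ρ := by
  have hn1 : 1 ≤ n := by omega
  have hp1 : 1 < p := (Fact.out : p.Prime).one_lt
  have hlt : p ^ (n - 1) < p ^ n := Nat.pow_lt_pow_right hp1 (by omega)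
  refine ⟨rhoSt ha hA k (p ^ n - 1 - r), fun x y => ?_, rhoSt_module ha hn hA k _,
    main_st ha hn hΓ hF hA hcont k _ r (by omega) hr hrN hk⟩
  have h1 : LT.red p n (PowerSeries.coeff 1 (a x).g) ^ (p ^ n - 1 - r) = 1 := by
    have h2 : LT.red p n (PowerSeries.coeff 1 (a x).g) ^ (p ^ n - 1 - r + r) = 1 := by
      rw [show p ^ n - 1 - r + r = p ^ n - 1 by omega]
      exact gal_pow hn1 (red_t_ne (jj ha x))
    rwa [pow_add, hs x, mul_one] at h2
  rw [rhoSt_mk, ← map_pow MvPowerSeries.C, ← map_pow (WittVector.teichmuller p), h1, map_one,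
    map_one, one_mul]

include ha in
/-- The strict case: no twist. -/
theorem final_strict [TopologicalSpace G] (hn : 2 ≤ n) (hΓ : LT.IsHonda p n Γ)
    (hF : LT.IsUniversal p n Γ F) (hA : LT.HeightAdapted p n F)
    (hcont : ∀ K, ∀ᶠ x : G in 𝓝 (1 : G),
      PowerSeries.coeff 1 (a x).g - 1 ∈ LT.heightIdeal p n n ^ K)
    (k : ℤ) (hs : ∀ x, LT.red p n (PowerSeries.coeff 1 (a x).g) = 1) :
    ∃ ρ : G → Qn p n → Qn p n, (∀ (x : G) (r : LT.E0 p n),
      ρ x (mk p n r) = mk p n (St.twist a k x r)) ∧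
      St.IsMoravaModule a ρ ∧ ¬ St.H1Finite p n ρ := by
  have hp1 : 1 < p := (Fact.out : p.Prime).one_lt
  have hlt : p ^ (n - 1) < p ^ n := Nat.pow_lt_pow_right hp1 (by omega)
  have hN := N_pos (p := p) hn
  obtain ⟨r, hr, hrN, hk⟩ := exists_r hN k
  refine ⟨rhoSt ha hA k (p ^ n - 1 - r), fun x y => ?_, rhoSt_module ha hn hA k _,
    main_st ha hn hΓ hF hA hcont k _ r (by omega) hr hrN hk⟩
  rw [rhoSt_mk, hs x, map_one, map_one, one_pow, one_mul]

/-- A subgroup of finite index, identified with itself. -/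
theorem ofSubgroup (S : Subgroup (Gn p n F)) (hS : S.index ≠ 0) :
    St.IsFiniteIndex F (fun x : S => ofGn (x : Gn p n F)) where
  aut x := ofGn_aut _
  mul x y := ofGn_mul _ _
  injective := fun x y h => Subtype.ext (ofGn_injective h)
  index := by
    have hfi : S.FiniteIndex := ⟨hS⟩
    have hfin : Finite (Gn p n F ⧸ S) := Subgroup.finite_quotient_of_finiteIndex
    refine ⟨Set.range (fun q : Gn p n F ⧸ S => ofGn (Quotient.out q)), Set.finite_range _, ?_,
      fun y hy => ?_⟩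
    · rintro _ ⟨q, rfl⟩
      exact ofGn_aut _
    · refine ⟨_, ⟨QuotientGroup.mk (toGn y hy), rfl⟩, ⟨(Quotient.out
        (QuotientGroup.mk (toGn y hy) : Gn p n F ⧸ S))⁻¹ * toGn y hy, ?_⟩, ?_⟩
      · rw [← QuotientGroup.eq, QuotientGroup.out_eq']
      · rw [← ofGn_mul]
        show y = ofGn (Quotient.out (QuotientGroup.mk (toGn y hy) : Gn p n F ⧸ S) *
          ((Quotient.out (QuotientGroup.mk (toGn y hy) : Gn p n F ⧸ S))⁻¹ * toGn y hy))
        rw [mul_inv_cancel_left, ofGn_toGn]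

/-- the strict subgroup exists. -/
theorem exists_strict_st (hn1 : 1 ≤ n) (hA : LT.HeightAdapted p n F) :
    ∃ (G : Type) (_ : Group G) (a : G → St.Pair p n), St.IsFiniteIndex F a ∧
      ∀ y, (∃ x, a x = y) ↔ St.IsAut F y ∧ LT.red p n (PowerSeries.coeff 1 y.g) = 1 := by
  obtain ⟨S, hS, hS'⟩ := exists_strict hn1 hA
  refine ⟨S, inferInstance, fun x => ofGn (x : Gn p n F), ofSubgroup S hS, fun y => ⟨?_, ?_⟩⟩
  · rintro ⟨x, rfl⟩
    exact ⟨ofGn_aut _, (hS' _).1 x.2⟩
  · rintro ⟨hy, hr⟩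
    exact ⟨⟨toGn y hy, (hS' _).2 hr⟩, rfl⟩

include ha in
/-- the theorem of helper823 for `G`. -/
theorem neg_st (hn : 2 ≤ n) (hΓ : LT.IsHonda p n Γ) (hF : LT.IsUniversal p n Γ F)
    (hA : LT.HeightAdapted p n F) :
    ∃ (M : Type) (_ : AddCommGroup M) (_ : Module (LT.E0 p n) M) (ρ : G → M → M),
      St.IsMoravaModule a ρ ∧ (∀ r ∈ LT.heightIdeal p n (n - 1), ∀ m : M, r • m = 0) ∧
      ∀ [TopologicalSpace G], (∀ k, ∀ᶠ x : G in 𝓝 (1 : G), ∀ r,
        (a x).φ r - r ∈ LT.heightIdeal p n n ^ k) → ¬ St.H1Finite p n ρ := by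
  obtain ⟨M, iM, iM', ρ, h1, h2, h3⟩ := H823.neg hn hΓ hF hA (jj ha).range (jj_index ha)
  refine ⟨M, iM, iM', fun x => ρ (ee ha x), ⟨h1.finite, fun m => ?_, fun x y m => ?_,
    fun x m m' => h1.add _ m m', fun x r m => ?_⟩, h2, fun {_} hcont => ?_⟩
  · rw [map_one]
    exact h1.one m
  · rw [map_mul]
    exact h1.mul _ _ m
  · rw [h1.smul, pi_ee ha, MulEquiv.symm_apply_apply]
  · apply not_fin' ha
    have h4 : rr ha (fun x => ρ (ee ha x)) = ρ := by
      funext g m
      show ρ (ee ha ((ee ha).symm g)) m = _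
      rw [MulEquiv.apply_symm_apply]
    rw [h4]
    let _ : TopologicalSpace (jj ha).range := topRange ha
    refine h3 (fun k => ?_)
    rw [eventually_range ha]
    filter_upwards [hcont k] with x hx
    intro r
    rw [ee_coe]
    exact hx r

end

end Vale.Agent.P261.R2.H288
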