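import Vale.Agent.P261.R2.H288.Loc2
import Vale.Agent.P261.R2.H288.HFG
import Vale.Agent.P261.R2.H823.Equiv
import Vale.Agent.P261.R2.H398.A
import Vale.Agent.P261.R2.H398.B

/-!
# P261: one step of the devissage (helper288)
-/

namespace Vale.Agent.P261.R2.H288

open MvPowerSeries Vale.Agent.P217 Vale.Agent.P261 Vale.Agent.P261.R2.H932
  Vale.Agent.P261.R2.H398 Topology

variable {p n : ℕ} [Fact p.Prime] {Γ : FormalGroup (ZMod p)} {F : FormalGroup (LT.E0 p n)}

/-- the `ℤ_p`-module structure of an `E₀`-module. -/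
@[reducible] noncomputable def zmod (p n : ℕ) [Fact p.Prime] (M : Type) [AddCommGroup M]
    [Module (LT.E0 p n) M] : Module ℤ_[p] M := Module.compHom M (St.zp p n)

section

variable {G : Type} [Group G] {a : G → St.Pair p n} (ha : St.IsFiniteIndex F a)
  {M : Type} [AddCommGroup M] [Module (LT.E0 p n) M] {ρ : G → M → M}

/-- the representation over `ℤ_p`. -/
noncomputable def rep (h : St.IsMoravaModule a ρ) :
    letI := zmod p n M
    Representation ℤ_[p] G M :=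
  letI := zmod p n M
  { toFun := fun x =>
      { toFun := ρ x
        map_add' := h.add x
        map_smul' := fun b m => by
          show ρ x (St.zp p n b • m) = St.zp p n b • ρ x m
          rw [h.smul, fix_zp ha] }
    map_one' := by
      ext m
      exact h.one m
    map_mul' := fun x y => by
      ext m
      exact h.mul x y m }

/-- the filtration. -/
noncomputable def Fl (p n : ℕ) [Fact p.Prime] (M : Type) [AddCommGroup M]
    [Module (LT.E0 p n) M] (k : ℕ) :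
    letI := zmod p n M
    Submodule ℤ_[p] M :=
  letI := zmod p n M
  { carrier := (LT.heightIdeal p n n ^ k • ⊤ : Submodule (LT.E0 p n) M)
    add_mem' := fun h1 h2 => Submodule.add_mem _ h1 h2
    zero_mem' := Submodule.zero_mem _
    smul_mem' := fun b _ hm => Submodule.smul_mem _ (St.zp p n b) hm }

theorem dd_rep (h : St.IsMoravaModule a ρ) (j : ℕ) (c : (Fin j → G) → M) :
    letI := zmod p n M
    dd (rep ha h) j c = St.coboundary ρ j c := by
  let _ := zmod p n M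
  funext x
  rw [dd_apply, St.coboundary]
  congr 1
  refine Finset.sum_congr rfl fun i _ => ?_
  rcases neg_one_pow_eq_or ℤ ((i : ℕ) + 1) with h1 | h1
  · have h2 : (-1 : ℤ_[p]) ^ ((i : ℕ) + 1) = 1 := by
      have := congrArg (Int.cast : ℤ → ℤ_[p]) h1
      simpa using this
    rw [h1, h2, one_smul, one_smul]
  · have h2 : (-1 : ℤ_[p]) ^ ((i : ℕ) + 1) = -1 := by
      have := congrArg (Int.cast : ℤ → ℤ_[p]) h1
      simpa using this
    rw [h1, h2, neg_smul, neg_smul, one_smul, one_smul]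

variable [TopologicalSpace G]

theorem HFG_iff (h : St.IsMoravaModule a ρ) (j : ℕ) :
    letI := zmod p n M
    St.HFG p n ρ j ↔ HF (rep ha h) (Cont (Fl p n M)) j := by
  let _ := zmod p n M
  constructor
  · rintro ⟨d, e, he, hall⟩
    refine ⟨Submodule.span ℤ_[p] (Set.range e), Submodule.fg_span (Set.finite_range e), ?_, ?_⟩
    · rw [Submodule.span_le]
      rintro _ ⟨i, rfl⟩
      refine ⟨(he i).1, LinearMap.mem_ker.2 ?_⟩
      rw [dd_rep ha h]
      exact (he i).2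
    · rintro c ⟨hc1, hc2⟩
      have hc3 := LinearMap.mem_ker.1 hc2
      rw [dd_rep ha h] at hc3
      obtain ⟨b, c', hc', h1⟩ := hall c hc1 hc3
      rw [h1]
      refine Submodule.add_mem_sup ?_ ⟨c', hc', dd_rep ha h j c'⟩
      refine Submodule.sum_mem _ fun i _ => ?_
      exact Submodule.smul_mem _ (b i) (Submodule.subset_span ⟨i, rfl⟩)
  · rintro ⟨S, hS, hSZ, hZ⟩
    obtain ⟨d, e, he⟩ := Submodule.fg_iff_exists_fin_generating_family.1 hS
    refine ⟨d, e, fun i => ?_, fun c hc1 hc2 => ?_⟩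
    · obtain ⟨h1, h2⟩ := hSZ (he ▸ Submodule.subset_span ⟨i, rfl⟩ : e i ∈ S)
      have h3 := LinearMap.mem_ker.1 h2
      rw [dd_rep ha h] at h3
      exact ⟨h1, h3⟩
    · obtain ⟨s, hs, _, ⟨c', hc', rfl⟩, h1⟩ := Submodule.mem_sup.1 (hZ (x := c)
        ⟨hc1, LinearMap.mem_ker.2 (by rw [dd_rep ha h]; exact hc2)⟩)
      rw [← he, Submodule.mem_span_range_iff_exists_fun] at hs
      obtain ⟨b, hb⟩ := hs
      refine ⟨b, c', hc', ?_⟩
      rw [← h1, ← hb, dd_rep ha h]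
      rfl

end

section

variable {G : Type} [Group G] {a : G → St.Pair p n} (ha : St.IsFiniteIndex F a)

include ha in
/-- The quotients of `L_k` are Morava modules. -/
theorem quot_module (hn1 : 1 ≤ n) (I : Ideal (LT.E0 p n)) (i : ℕ) (k : ℤ)
    (ρ : G → LT.E0 p n ⧸ I → LT.E0 p n ⧸ I)
    (hρ : ∀ x r, ρ x (Ideal.Quotient.mk _ r) = Ideal.Quotient.mk _ (St.omegaTwist a i k x r)) :
    St.IsMoravaModule a ρ := by
  have hm := H823.omega_module ha hn1 i k
  refine ⟨inferInstance, fun m => ?_, fun x y m => ?_, fun x m m' => ?_, fun x r m => ?_⟩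
  · obtain ⟨m, rfl⟩ := Ideal.Quotient.mk_surjective m
    rw [hρ, hm.one]
  · obtain ⟨m, rfl⟩ := Ideal.Quotient.mk_surjective m
    rw [hρ, hρ, hρ, hm.mul]
  · obtain ⟨m, rfl⟩ := Ideal.Quotient.mk_surjective m
    obtain ⟨m', rfl⟩ := Ideal.Quotient.mk_surjective m'
    rw [← map_add, hρ, hρ, hρ, hm.add, map_add]
  · obtain ⟨m, rfl⟩ := Ideal.Quotient.mk_surjective m
    have h1 : r • Ideal.Quotient.mk I m = Ideal.Quotient.mk I (r • m) := rfl
    rw [h1, hρ, hρ, hm.smul]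
    rfl

theorem zpow_sub_one_mem {R : Type*} [CommRing R] (J : Ideal R) (u : Rˣ) (hu : (u : R) - 1 ∈ J)
    (k : ℤ) : ((u ^ k : Rˣ) : R) - 1 ∈ J := by
  have h1 : Units.map (Ideal.Quotient.mk J : R →* R ⧸ J) u = 1 := by
    apply Units.ext
    rw [Units.coe_map, Units.val_one]
    have h2 : Ideal.Quotient.mk J (u : R) = Ideal.Quotient.mk J 1 := Ideal.Quotient.eq.2 hu
    rw [map_one] at h2
    exact h2
  have h3 : Units.map (Ideal.Quotient.mk J : R →* R ⧸ J) (u ^ k) = 1 := by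
    rw [map_zpow, h1, one_zpow]
  have h4 := congrArg Units.val h3
  rw [Units.coe_map, Units.val_one] at h4
  have h5 : Ideal.Quotient.mk J ((u ^ k : Rˣ) : R) = Ideal.Quotient.mk J 1 := by
    rw [map_one]
    exact h4
  exact Ideal.Quotient.eq.1 h5

variable [TopologicalSpace G]

include ha in
theorem omega_cont (hn1 : 1 ≤ n) (hcont : ∀ K, ∀ᶠ x : G in 𝓝 (1 : G),
      PowerSeries.coeff 1 (a x).g - 1 ∈ LT.heightIdeal p n n ^ K ∧
        ∀ r, (a x).φ r - r ∈ LT.heightIdeal p n n ^ K) (i : ℕ) (k : ℤ) (K : ℕ) :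
    ∀ᶠ x : G in 𝓝 (1 : G), ∀ r, St.omegaTwist a i k x r - r ∈ LT.heightIdeal p n n ^ K := by
  filter_upwards [hcont K, hcont 1] with x hx hx1
  intro r
  have h1 : P217.red p n (Gn.t (jj ha x)) = 1 := by
    have h2 := hx1.1
    rw [pow_one] at h2
    exact (red_eq_one_iff hn1 _).2 h2
  have h3 : H823.ww (jj ha x) = 1 := by
    change tch p n (P217.red p n (Gn.t (jj ha x))) = 1
    rw [h1, tch_one]
  rw [H823.omega_eq ha, h3, one_pow, one_mul, Gn.tw]
  have h4 := zpow_sub_one_mem (LT.heightIdeal p n n ^ K) (Gn.isUnit_t (jj ha x)).unit hx.1 k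
  have h5 : (((Gn.isUnit_t (jj ha x)).unit ^ k : (LT.E0 p n)ˣ) : LT.E0 p n) *
      Gn.pi (jj ha x) r - r =
      ((((Gn.isUnit_t (jj ha x)).unit ^ k : (LT.E0 p n)ˣ) : LT.E0 p n) - 1) *
        Gn.pi (jj ha x) r + ((a x).φ r - r) := by
    rw [← jj_pi ha]
    ring
  rw [h5]
  exact Ideal.add_mem _ (Ideal.mul_mem_right _ _ h4) (hx.2 r)

variable [ContinuousMul G]

include ha in
/-- **One step of the devissage.** -/
theorem step_HFG (hn1 : 1 ≤ n) (hΓ : LT.IsHonda p n Γ) (hF : LT.IsUniversal p n Γ F)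
    (hA : LT.HeightAdapted p n F) (hcont : ∀ K, ∀ᶠ x : G in 𝓝 (1 : G),
      PowerSeries.coeff 1 (a x).g - 1 ∈ LT.heightIdeal p n n ^ K ∧
        ∀ r, (a x).φ r - r ∈ LT.heightIdeal p n n ^ K) (i : ℕ) (k : ℤ) (h j : ℕ) (hh : h < n)
    (ρ₁ ρ₀ : G → LT.E0 p n ⧸ LT.heightIdeal p n h → LT.E0 p n ⧸ LT.heightIdeal p n h)
    (ρ₂ : G → LT.E0 p n ⧸ LT.heightIdeal p n (h + 1) → LT.E0 p n ⧸ LT.heightIdeal p n (h + 1))
    (e1 : ∀ x r, ρ₁ x (Ideal.Quotient.mk _ r) = Ideal.Quotient.mk _ (St.omegaTwist a i k x r))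
    (e0 : ∀ x r, ρ₀ x (Ideal.Quotient.mk _ r) =
      Ideal.Quotient.mk _ (St.omegaTwist a i (k - ((p ^ h - 1 : ℕ) : ℤ)) x r))
    (e2 : ∀ x r, ρ₂ x (Ideal.Quotient.mk _ r) = Ideal.Quotient.mk _ (St.omegaTwist a i k x r))
    (H1 : St.HFG p n ρ₁ j) (H2 : St.HFG p n ρ₀ (j + 1)) : St.HFG p n ρ₂ j := by
  let _ : Module ℤ_[p] (LT.E0 p n ⧸ LT.heightIdeal p n h) := zmod p n _
  let _ : Module ℤ_[p] (LT.E0 p n ⧸ LT.heightIdeal p n (h + 1)) := zmod p n _
  have hle : LT.heightIdeal p n h ≤ LT.heightIdeal p n (h + 1) :=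
    H260.heightIdeal_mono (Nat.le_succ h)
  have hprime : (LT.heightIdeal p n h).IsPrime := isPrime_heightIdeal hn1 h hh.le
  have hDom : IsDomain (LT.E0 p n ⧸ LT.heightIdeal p n h) := Ideal.Quotient.isDomain _
  have hv := H823.lead_notMem hn1 hΓ hF hA h hh
  have hsucc := H823.succ_eq hn1 hΓ hF hA h hh
  have m1 := quot_module ha hn1 _ i k ρ₁ e1
  have m0 := quot_module ha hn1 _ i _ ρ₀ e0
  have m2 := quot_module ha hn1 _ i k ρ₂ e2
  rw [HFG_iff ha m1] at H1
  rw [HFG_iff ha m0] at H2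
  rw [HFG_iff ha m2]
  let ι : (LT.E0 p n ⧸ LT.heightIdeal p n h) →ₗ[ℤ_[p]] (LT.E0 p n ⧸ LT.heightIdeal p n h) :=
    { toFun := fun m => Ideal.Quotient.mk _ (lead F h) * m
      map_add' := fun m m' => mul_add _ _ _
      map_smul' := fun b m => by
        obtain ⟨m, rfl⟩ := Ideal.Quotient.mk_surjective m
        show Ideal.Quotient.mk _ (lead F h) * Ideal.Quotient.mk _ (St.zp p n b * m) =
          Ideal.Quotient.mk _ (St.zp p n b * (lead F h * m))
        rw [← map_mul]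
        congr 1
        ring }
  let π : (LT.E0 p n ⧸ LT.heightIdeal p n h) →ₗ[ℤ_[p]]
      (LT.E0 p n ⧸ LT.heightIdeal p n (h + 1)) :=
    { toFun := Ideal.Quotient.factor hle
      map_add' := fun m m' => map_add _ _ _
      map_smul' := fun b m => by
        obtain ⟨m, rfl⟩ := Ideal.Quotient.mk_surjective m
        rfl }
  have hπmk : ∀ r, π (Ideal.Quotient.mk _ r) = Ideal.Quotient.mk _ r := fun r => rfl
  have hιmk : ∀ r, ι (Ideal.Quotient.mk _ r) = Ideal.Quotient.mk _ (lead F h * r) := fun r =>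
    (map_mul _ _ _).symm
  have hact : ∀ (I : Ideal (LT.E0 p n)) (k' : ℤ) (ρ : G → LT.E0 p n ⧸ I → LT.E0 p n ⧸ I)
      (hρ : ∀ x r, ρ x (Ideal.Quotient.mk _ r) = Ideal.Quotient.mk _ (St.omegaTwist a i k' x r))
      (K : ℕ) (m : LT.E0 p n ⧸ I), ∀ᶠ x : G in 𝓝 (1 : G),
        ρ x m - m ∈ (LT.heightIdeal p n n ^ K • ⊤ : Submodule (LT.E0 p n) (LT.E0 p n ⧸ I)) := by
    intro I k' ρ hρ K m
    obtain ⟨m, rfl⟩ := Ideal.Quotient.mk_surjective m
    filter_upwards [omega_cont ha hn1 hcont i k' K] with x hx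
    rw [hρ, ← map_sub, mem_smul_top]
    exact Ideal.mem_sup_right (hx m)
  obtain ⟨σ, hσ1, hσ2⟩ := exists_section (LT.heightIdeal p n n) (LT.heightIdeal p n (h + 1))
    (complete hn1) (closed hn1 _)
  obtain ⟨c₀, hc₀⟩ := artin_rees (LT.heightIdeal p n n) (LT.heightIdeal p n h) hv
  refine step (rep ha m0) (rep ha m1) (rep ha m2) ι π ?_ ?_ ?_ ?_ ?_ _ _ _ ?_ ?_ ?_ ?_ j H1 H2
  · intro x m
    obtain ⟨m, rfl⟩ := Ideal.Quotient.mk_surjective m
    show ι (ρ₀ x _) = ρ₁ x (ι _)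
    rw [e0, hιmk, hιmk, e1, eq_comm, Ideal.Quotient.eq]
    exact H823.equiv_v ha hF hA h hh.le i k x m
  · intro x m
    obtain ⟨m, rfl⟩ := Ideal.Quotient.mk_surjective m
    show π (ρ₁ x _) = ρ₂ x (π _)
    rw [e1, hπmk, hπmk, e2]
  · intro m m' hm
    exact mul_left_cancel₀ (fun h0 => hv (Ideal.Quotient.eq_zero_iff_mem.1 h0)) hm
  · intro m
    obtain ⟨m, rfl⟩ := Ideal.Quotient.mk_surjective m
    rw [hιmk, hπmk, Ideal.Quotient.eq_zero_iff_mem, hsucc]
    exact Ideal.mem_sup_right (Ideal.mul_mem_right _ _ (Ideal.mem_span_singleton_self _))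
  · intro m hm
    obtain ⟨m, rfl⟩ := Ideal.Quotient.mk_surjective m
    rw [hπmk, Ideal.Quotient.eq_zero_iff_mem, hsucc] at hm
    obtain ⟨y, hy, z, hz, hyz⟩ := Submodule.mem_sup.1 hm
    obtain ⟨s, rfl⟩ := Ideal.mem_span_singleton'.1 hz
    refine ⟨Ideal.Quotient.mk _ s, ?_⟩
    rw [hιmk, eq_comm, Ideal.Quotient.eq, ← hyz]
    have h3 : y + s * lead F h - lead F h * s = y := by ring
    rw [h3]
    exact hy
  · intro j c hc
    exact dd_mem_Cont (rep ha m1) (Fl p n _) (fun K x m hm => rho_mem hA ha m1 x K hm)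
      (fun K m => hact _ k ρ₁ e1 K m) j c hc
  · intro j c hc
    refine ⟨fun x => Ideal.Quotient.mk _ (σ (c x)), fun K x => ?_, ?_⟩
    · filter_upwards [hc K x] with y hy
      obtain ⟨Y, hY⟩ := Ideal.Quotient.mk_surjective (c y)
      obtain ⟨X', hX⟩ := Ideal.Quotient.mk_surjective (c x)
      have hy' : c y - c x ∈ (LT.heightIdeal p n n ^ K • ⊤ : Submodule (LT.E0 p n)
        (LT.E0 p n ⧸ LT.heightIdeal p n (h + 1))) := hy
      rw [← hY, ← hX, ← map_sub, mem_smul_top] at hy'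
      have h4 := hσ2 K Y X' hy'
      rw [hY, hX] at h4
      show Ideal.Quotient.mk _ (σ (c y)) - Ideal.Quotient.mk _ (σ (c x)) ∈
        (LT.heightIdeal p n n ^ K • ⊤ : Submodule (LT.E0 p n)
          (LT.E0 p n ⧸ LT.heightIdeal p n h))
      rw [← map_sub, mem_smul_top]
      exact Ideal.mem_sup_right h4
    · funext x
      exact hσ1 (c x)
  · intro j c hc K x
    filter_upwards [hc K x] with y hy
    have hy' : c y - c x ∈ (LT.heightIdeal p n n ^ K • ⊤ : Submodule (LT.E0 p n)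
        (LT.E0 p n ⧸ LT.heightIdeal p n h)) := hy
    rw [mp_apply, mp_apply, ← map_sub]
    obtain ⟨r, hr⟩ := Ideal.Quotient.mk_surjective (c y - c x)
    rw [← hr, mem_smul_top] at hy'
    rw [← hr, hπmk]
    show _ ∈ (LT.heightIdeal p n n ^ K • ⊤ : Submodule (LT.E0 p n)
          (LT.E0 p n ⧸ LT.heightIdeal p n (h + 1)))
    rw [mem_smul_top]
    exact sup_le_sup_right hle _ hy'
  · intro j c
    constructor
    · intro hc K x
      filter_upwards [hc (K + c₀) x] with y hy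
      rw [mp_apply, mp_apply, ← map_sub] at hy
      have hy' : ι (c y - c x) ∈ (LT.heightIdeal p n n ^ (K + c₀) • ⊤ : Submodule (LT.E0 p n)
        (LT.E0 p n ⧸ LT.heightIdeal p n h)) := hy
      obtain ⟨r, hr⟩ := Ideal.Quotient.mk_surjective (c y - c x)
      rw [← hr, hιmk, mem_smul_top] at hy'
      show c y - c x ∈ (LT.heightIdeal p n n ^ K • ⊤ : Submodule (LT.E0 p n)
          (LT.E0 p n ⧸ LT.heightIdeal p n h))
      rw [← hr, mem_smul_top]
      exact hc₀ K r hy'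
    · intro hc K x
      filter_upwards [hc K x] with y hy
      rw [mp_apply, mp_apply, ← map_sub]
      have hy' : c y - c x ∈ (LT.heightIdeal p n n ^ K • ⊤ : Submodule (LT.E0 p n)
        (LT.E0 p n ⧸ LT.heightIdeal p n h)) := hy
      have h5 := Submodule.smul_mem _ (lead F h) hy'
      obtain ⟨r, hr⟩ := Ideal.Quotient.mk_surjective (c y - c x)
      rw [← hr] at h5 ⊢
      exact h5

end

end Vale.Agent.P261.R2.H288
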