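import Vale.Agent.P261.R2.H288.Fam

/-!
# P261: the strict subgroup and the final statement (helper288)
-/

namespace Vale.Agent.P261.R2.H288

open MvPowerSeries Vale.Agent.P217 Vale.Agent.P261.R2.H932 Topology

variable {p n : ℕ} [Fact p.Prime] {Γ : FormalGroup (ZMod p)} {F : FormalGroup (LT.E0 p n)}

theorem red_eq_one_iff (hn1 : 1 ≤ n) (x : LT.E0 p n) :
    P217.red p n x = 1 ↔ x - 1 ∈ P217.heightIdeal p n n := by
  rw [mem_heightIdeal_top hn1, map_sub, map_one, sub_eq_zero]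

theorem red_pi_eq_one_iff (hn1 : 1 ≤ n) (hA : LT.HeightAdapted p n F) (g : Gn p n F)
    (x : LT.E0 p n) : P217.red p n (Gn.pi g x) = 1 ↔ P217.red p n x = 1 := by
  rw [red_eq_one_iff hn1, red_eq_one_iff hn1, ← pi_mem_iff hA n le_rfl g (x - 1), map_sub, map_one]

/-- The elements of `G_n` with `ω(g) = 1` form a subgroup of finite index. -/
theorem exists_strict (hn1 : 1 ≤ n) (hA : LT.HeightAdapted p n F) :
    ∃ S : Subgroup (Gn p n F), S.index ≠ 0 ∧ ∀ g, g ∈ S ↔ P217.red p n (Gn.t g) = 1 := by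
  let S : Subgroup (Gn p n F) :=
    { carrier := {g | P217.red p n (Gn.t g) = 1}
      mul_mem' := by
        intro a b ha hb
        change P217.red p n (Gn.t a) = 1 at ha
        change P217.red p n (Gn.t b) = 1 at hb
        change P217.red p n (Gn.t (a * b)) = 1
        rw [Gn.t_mul, map_mul, ha, one_mul, red_pi_eq_one_iff hn1 hA]
        exact hb
      one_mem' := by
        change P217.red p n (Gn.t 1) = 1
        rw [Gn.t_one, map_one]
      inv_mem' := by
        intro a ha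
        change P217.red p n (Gn.t a) = 1 at ha
        change P217.red p n (Gn.t a⁻¹) = 1
        have h1 := congrArg (P217.red p n) (Gn.t_mul a⁻¹ a)
        rw [inv_mul_cancel, Gn.t_one, map_one, map_mul, (red_pi_eq_one_iff hn1 hA _ _).2 ha,
          mul_one] at h1
        exact h1.symm }
  refine ⟨S, ?_, fun g => Iff.rfl⟩
  have hfin : Finite (Gn p n F ⧸ S) := by
    refine Finite.of_injective
      (fun x : Gn p n F ⧸ S => P217.red p n (Gn.t (Quotient.out x))) ?_
    intro x y hxy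
    change P217.red p n (Gn.t (Quotient.out x)) = P217.red p n (Gn.t (Quotient.out y)) at hxy
    have h1 : (Quotient.out y)⁻¹ * Quotient.out x ∈ S := by
      change P217.red p n (Gn.t ((Quotient.out y)⁻¹ * Quotient.out x)) = 1
      have h2 := Gn.t_mul (Quotient.out y) ((Quotient.out y)⁻¹ * Quotient.out x)
      rw [mul_inv_cancel_left] at h2
      rw [← red_pi_eq_one_iff hn1 hA (Quotient.out y)]
      have h3 := congrArg (P217.red p n) h2
      rw [map_mul, hxy] at h3
      exact mul_left_cancel₀ (red_t_ne (Quotient.out y)) (h3.symm.trans (mul_one _).symm)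
    have h4 := QuotientGroup.eq.2 h1
    rw [QuotientGroup.out_eq', QuotientGroup.out_eq'] at h4
    exact h4.symm
  exact Subgroup.index_ne_zero_of_finite

theorem exists_r {N : ℕ} (hN : 1 ≤ N) (k : ℤ) : ∃ r : ℕ, 1 ≤ r ∧ r ≤ N ∧ (N : ℤ) ∣ k - r := by
  have hN0 : (0 : ℤ) < N := by omega
  have h1 := Int.emod_nonneg (k - 1) hN0.ne'
  have h2 := Int.emod_lt_of_pos (k - 1) hN0
  refine ⟨((k - 1) % N).toNat + 1, by omega, by omega, ?_⟩
  have h3 : k - ((((k - 1) % N).toNat + 1 : ℕ) : ℤ) = (k - 1) - (k - 1) % N := by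
    push_cast
    rw [Int.toNat_of_nonneg h1]
    ring
  rw [h3]
  exact Int.dvd_self_sub_emod

/-- the final statement for given data. -/
theorem final (hn : 2 ≤ n) (hΓ : LT.IsHonda p n Γ) (hF : LT.IsUniversal p n Γ F)
    (hA : LT.HeightAdapted p n F) (H : Subgroup (Gn p n F)) (hH : H.index ≠ 0)
    [TopologicalSpace H]
    (hcont : ∀ K, ∀ᶠ g : H in 𝓝 (1 : H), Gn.t (g : Gn p n F) - 1 ∈ LT.heightIdeal p n n ^ K)
    (k : ℤ) :
    ((∀ g ∈ H, P217.red p n (Gn.t g) = 1) → ∃ ρ : H → Qn p n → Qn p n,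
      (∀ (g : H) x, ρ g (mk p n x) = mk p n (Gn.tw k (g : Gn p n F) x)) ∧
        IsMoravaModule H (Qn p n) ρ ∧ ¬ H1Finite H ρ) ∧
    ∀ r : ℕ, 1 ≤ r → r ≤ p ^ (n - 1) - 1 → ((p ^ (n - 1) - 1 : ℕ) : ℤ) ∣ k - r →
      ∃ ρ : H → Qn p n → Qn p n,
      (∀ (g : H) x, ρ g (mk p n x) =
        mk p n (C (WittVector.teichmuller p (P217.red p n (Gn.t (g : Gn p n F)))) ^
          (p ^ n - 1 - r) * Gn.tw k (g : Gn p n F) x)) ∧
        IsMoravaModule H (Qn p n) ρ ∧ ¬ H1Finite H ρ := by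
  have hp1 : 1 < p := (Fact.out : p.Prime).one_lt
  have hlt : p ^ (n - 1) < p ^ n := Nat.pow_lt_pow_right hp1 (by omega)
  have hN := N_pos (p := p) hn
  refine ⟨fun hs => ?_, fun r hr hrN hk => ?_⟩
  · obtain ⟨r, hr, hrN, hk⟩ := exists_r hN k
    refine ⟨fun g => rho hA k (p ^ n - 1 - r) (g : Gn p n F), fun g x => ?_,
      rho_module hn hA H k _, main hn hΓ hF hA H hH hcont k _ r (by omega) hr hrN hk⟩
    show rho hA k (p ^ n - 1 - r) (g : Gn p n F) (mk p n x) = _
    rw [rho_mk, hs g g.2, tch_one, one_pow, one_mul]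
  · exact ⟨fun g => rho hA k (p ^ n - 1 - r) (g : Gn p n F), fun g x => rho_mk hA k _ _ x,
      rho_module hn hA H k _, main hn hΓ hF hA H hH hcont k _ r (by omega) hr hrN hk⟩

end Vale.Agent.P261.R2.H288
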